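import Crest.Agent.R168.Core
import Crest.Prelude.Def_Labels

set_option autoImplicit false

/-!
Splitting one uniform label into an independent sequence, and conditioning on the ordering labels.
-/

namespace Crest.Agent.R168

open Filter Topology MeasureTheory ProbabilityTheory Set

lemma exists_split : ∃ f : unitInterval → ℕ → ℝ, Measurable f ∧
    volume.map f = Measure.infinitePi fun _ : ℕ => mu0 :=
  Measure.exists_measurable_map_eq _

/-- a measurable map turning one uniform label into an independent uniform sequence -/
noncomputable def split : unitInterval → ℕ → ℝ := exists_split.choose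

@[fun_prop] lemma measurable_split : Measurable split := exists_split.choose_spec.1

lemma map_split : volume.map split = Measure.infinitePi fun _ : ℕ => mu0 :=
  exists_split.choose_spec.2

variable {A : Type*}

/-- ordering labels -/
noncomputable def ordL (x : A → unitInterval) : A → ℝ := fun a => split (x a) 0

/-- remaining labels -/
noncomputable def restL (x : A → unitInterval) : A × ℕ → ℝ := fun p => split (x p.1) (p.2 + 1)

lemma measurable_ordL : Measurable (ordL : (A → unitInterval) → A → ℝ) := by
  unfold ordL; fun_prop

lemma measurable_restL : Measurable (restL : (A → unitInterval) → A × ℕ → ℝ) := by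
  unfold restL; fun_prop

lemma law_split : (Crest.ProbabilityR.Labels.labelMeasure A).map (fun x => (ordL x, restL x)) =
    (Measure.infinitePi fun _ : A => mu0).prod (Q0 A) := by
  have h1 : (Crest.ProbabilityR.Labels.labelMeasure A).map (fun x a => split (x a)) =
      Measure.infinitePi fun _ : A => Measure.infinitePi fun _ : ℕ => mu0 := by
    unfold Crest.ProbabilityR.Labels.labelMeasure
    rw [Measure.infinitePi_map_pi _ (f := fun _ => split) fun _ => measurable_split, map_split]
  have h2 := Measure.infinitePi_map_curry_symm (fun (_ : A) (_ : ℕ) => mu0)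
  let e : A ⊕ (A × ℕ) → A × ℕ := Sum.elim (fun a => (a, 0)) fun p => (p.1, p.2 + 1)
  have he : Function.Injective e := by
    rintro (a | ⟨a, k⟩) (b | ⟨b, l⟩) h <;> simp_all [e]
  have h3 := Measure.map_infinitePi_infinitePi_of_inj (P := fun _ : A × ℕ => mu0) he
  have h4 := infinitePi_sum (A := A) (B := A × ℕ) mu0
  have hm : Measurable fun p : (A → ℝ) × (A × ℕ → ℝ) => Sum.elim p.1 p.2 := by
    refine measurable_pi_lambda _ fun j => ?_
    cases j with
    | inl a => exact (measurable_pi_apply a).comp measurable_fst
    | inr b => exact (measurable_pi_apply b).comp measurable_snd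
  let g : (A ⊕ (A × ℕ) → ℝ) → (A → ℝ) × (A × ℕ → ℝ) :=
    fun f => (fun a => f (Sum.inl a), fun p => f (Sum.inr p))
  have hg : Measurable g := by fun_prop
  have h5 : (Measure.infinitePi fun _ : A ⊕ (A × ℕ) => mu0).map g =
      (Measure.infinitePi fun _ : A => mu0).prod (Q0 A) := by
    rw [← h4, Measure.map_map hg hm]
    exact Measure.map_id
  rw [← h5, ← h3, ← h2, ← h1, Measure.map_map (by fun_prop) (by fun_prop),
    Measure.map_map (by fun_prop) (by fun_prop), Measure.map_map (by fun_prop) (by fun_prop)]
  rfl

instance : NullSingletonClass mu0 := by unfold mu0; infer_instance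

lemma ae_injective [Countable A] :
    ∀ᵐ o ∂(Measure.infinitePi fun _ : A => mu0), Function.Injective o := by
  have : ∀ a b : A, ∀ᵐ o ∂(Measure.infinitePi fun _ : A => mu0), o a = o b → a = b := by
    intro a b
    by_cases hab : a = b
    · exact ae_of_all _ fun _ _ => hab
    have h := Measure.infinitePi_map_eval_prod (P := fun _ : A => mu0) hab
    have hs : MeasurableSet {p : ℝ × ℝ | p.1 = p.2} := measurableSet_eq_fun measurable_fst measurable_snd
    have h0 : mu0.prod mu0 {p : ℝ × ℝ | p.1 = p.2} = 0 := by
      rw [Measure.measure_prod_null hs]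
      refine ae_of_all _ fun x => ?_
      have : Prod.mk x ⁻¹' {p : ℝ × ℝ | p.1 = p.2} = {x} := by ext y; simp [eq_comm]
      simp [this]
    rw [← h, Measure.map_apply (by fun_prop) hs] at h0
    have h1 : ∀ᵐ o ∂(Measure.infinitePi fun _ : A => mu0), ¬ o a = o b := by
      rw [ae_iff]; simpa using h0
    filter_upwards [h1] with o ho h using absurd h ho
  filter_upwards [ae_all_iff.2 fun a => ae_all_iff.2 fun b => this a b] with o ho a b h
    using ho a b h

lemma law_of_fiber [Countable A] {β : Type*} [MeasurableSpace β] (ν : Measure β)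
    {Ψ : (A → ℝ) × (A × ℕ → ℝ) → β} (hΨ : Measurable Ψ)
    (h : ∀ o : A → ℝ, Function.Injective o → (Q0 A).map (fun U => Ψ (o, U)) = ν) :
    (Crest.ProbabilityR.Labels.labelMeasure A).map (fun x => Ψ (ordL x, restL x)) = ν := by
  have := Measure.map_map (μ := Crest.ProbabilityR.Labels.labelMeasure A) hΨ
    (measurable_ordL.prodMk measurable_restL)
  rw [law_split] at this
  refine Eq.trans this.symm ?_
  ext s hs
  rw [Measure.map_apply hΨ hs, Measure.prod_apply (hΨ hs)]
  have e : ∀ᵐ o ∂(Measure.infinitePi fun _ : A => mu0), Q0 A (Prod.mk o ⁻¹' (Ψ ⁻¹' s)) = ν s := by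
    filter_upwards [ae_injective] with o ho
    rw [← h o ho, Measure.map_apply (f := fun U => Ψ (o, U)) (hΨ.comp measurable_prodMk_left) hs]
    rfl
  rw [lintegral_congr_ae e]
  simp

end Crest.Agent.R168
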