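import Crest.Agent.R168.Prob

set_option autoImplicit false

/-!
The core law identity: the factor map `Phi` sends independent uniform labels to `ν` as soon as the
predictor is Lipschitz and agrees with limits of finite-volume posterior means.
-/

namespace Crest.Agent.R168

open Filter Topology MeasureTheory ProbabilityTheory Set

variable {V : Type*}

/-- exponential tilt weight -/
noncomputable def wt (F : Finset V) (h : V → ℝ) (x : V → Bool) : ℝ :=
  Real.exp (∑ w ∈ F, if x w then h w else 0)

/-- numerical value of a bit -/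
noncomputable def ind (b : Bool) : ℝ := if b then 1 else 0

/-- posterior mean of the bit at `v` under the field `h` acting on `F`. -/
noncomputable def tilt (ν : Measure (V → Bool)) (F : Finset V) (v : V) (h : V → ℝ) : ℝ :=
  (∫ x, ind (x v) * wt F h x ∂ν) / ∫ x, wt F h x ∂ν

lemma ind_nonneg (b : Bool) : 0 ≤ ind b := by unfold ind; split_ifs <;> norm_num

lemma ind_le_one (b : Bool) : ind b ≤ 1 := by unfold ind; split_ifs <;> norm_num

lemma abs_ind_le (b : Bool) : |ind b| ≤ 1 := by
  rw [abs_of_nonneg (ind_nonneg b)]; exact ind_le_one b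

@[fun_prop] lemma measurable_ind : Measurable ind := measurable_of_countable _

lemma wt_pos (F : Finset V) (h : V → ℝ) (x : V → Bool) : 0 < wt F h x := Real.exp_pos _

lemma wt_le (F : Finset V) (h : V → ℝ) (x : V → Bool) :
    wt F h x ≤ Real.exp (∑ w ∈ F, |h w|) := by
  unfold wt
  refine Real.exp_le_exp.2 (Finset.sum_le_sum fun w _ => ?_)
  split_ifs
  · exact le_abs_self _
  · exact abs_nonneg _

lemma measurable_wt₂ (F : Finset V) :
    Measurable fun p : (V → ℝ) × (V → Bool) => wt F p.1 p.2 := by
  unfold wt
  refine Real.measurable_exp.comp (Finset.measurable_sum _ fun w _ => ?_)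
  refine Measurable.ite ?_ (by fun_prop) measurable_const
  exact measurableSet_eq_fun ((measurable_pi_apply w).comp measurable_snd) measurable_const

lemma measurable_wt (F : Finset V) (h : V → ℝ) : Measurable (wt F h) :=
  (measurable_wt₂ F).comp (measurable_const.prodMk measurable_id)

lemma wt_congr {F : Finset V} {h h' : V → ℝ} (hh : ∀ w ∈ F, h w = h' w) : wt F h = wt F h' := by
  funext x
  unfold wt
  congr 1
  exact Finset.sum_congr rfl fun w hw => by rw [hh w hw]

lemma tilt_congr (ν : Measure (V → Bool)) {F : Finset V} (v : V) {h h' : V → ℝ}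
    (hh : ∀ w ∈ F, h w = h' w) : tilt ν F v h = tilt ν F v h' := by
  unfold tilt; rw [wt_congr hh]

section

variable (ν : Measure (V → Bool)) [IsProbabilityMeasure ν]

lemma integrable_wt (F : Finset V) (h : V → ℝ) : Integrable (wt F h) ν :=
  integrable_of_bdd (measurable_wt F h) _ fun x => by
    rw [abs_of_pos (wt_pos F h x)]; exact wt_le F h x

lemma integrable_ind_wt (F : Finset V) (v : V) (h : V → ℝ) :
    Integrable (fun x => ind (x v) * wt F h x) ν :=
  integrable_of_bdd ((measurable_ind.comp (measurable_pi_apply v)).mul (measurable_wt F h))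
    (1 * Real.exp (∑ w ∈ F, |h w|)) fun x => by
    rw [abs_mul, abs_of_pos (wt_pos F h x)]
    exact mul_le_mul (abs_ind_le _) (wt_le F h x) (wt_pos F h x).le zero_le_one

lemma integral_wt_pos (F : Finset V) (h : V → ℝ) : 0 < ∫ x, wt F h x ∂ν := by
  rw [integral_pos_iff_support_of_nonneg (fun x => (wt_pos F h x).le) (integrable_wt ν F h)]
  have : Function.support (wt F h) = univ := by
    ext x; simp [(wt_pos F h x).ne']
  simp [this]

lemma tilt_nonneg (F : Finset V) (v : V) (h : V → ℝ) : 0 ≤ tilt ν F v h :=
  div_nonneg (integral_nonneg fun x => mul_nonneg (ind_nonneg _) (wt_pos F h x).le)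
    (integral_wt_pos ν F h).le

lemma tilt_le_one (F : Finset V) (v : V) (h : V → ℝ) : tilt ν F v h ≤ 1 := by
  unfold tilt
  rw [div_le_one (integral_wt_pos ν F h)]
  refine integral_mono (integrable_ind_wt ν F v h) (integrable_wt ν F h) fun x => ?_
  exact mul_le_of_le_one_left (wt_pos F h x).le (ind_le_one _)

lemma measurable_tilt (F : Finset V) (v : V) : Measurable (tilt ν F v) := by
  unfold tilt
  refine Measurable.div ?_ ?_
  · exact (StronglyMeasurable.integral_prod_right' (f := fun p : (V → ℝ) × (V → Bool) =>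
      ind (p.2 v) * wt F p.1 p.2) (((measurable_ind.comp ((measurable_pi_apply v).comp
        measurable_snd)).mul (measurable_wt₂ F)).stronglyMeasurable)).measurable
  · exact (StronglyMeasurable.integral_prod_right' (f := fun p : (V → ℝ) × (V → Bool) =>
      wt F p.1 p.2) (measurable_wt₂ F).stronglyMeasurable).measurable

end

/-- law of the observations given the bits -/
noncomputable def Qx (x : V → Bool) : Measure (V × ℕ → ℝ) :=
  Measure.infinitePi fun j => mub (x j.1)

/-- independent uniform array -/
noncomputable def Q0 (V : Type*) : Measure (V × ℕ → ℝ) := Measure.infinitePi fun _ => mu0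

instance (x : V → Bool) : IsProbabilityMeasure (Qx x) := by unfold Qx; infer_instance

instance : IsProbabilityMeasure (Q0 V) := by unfold Q0; infer_instance

/-- auxiliary noise -/
noncomputable def noise (V : Type*) : Measure (V × ℕ → ℝ × ℝ) :=
  Measure.infinitePi fun _ => (mub false).prod (mub true)

instance : IsProbabilityMeasure (noise V) := by unfold noise; infer_instance

/-- the observations -/
def obs (ω : (V → Bool) × (V × ℕ → ℝ × ℝ)) : V × ℕ → ℝ :=
  fun j => if ω.1 j.1 then (ω.2 j).2 else (ω.2 j).1

lemma measurable_obs : Measurable (obs : (V → Bool) × (V × ℕ → ℝ × ℝ) → V × ℕ → ℝ) := by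
  refine measurable_pi_lambda _ fun j => ?_
  refine Measurable.ite ?_ (by fun_prop) (by fun_prop)
  exact measurableSet_eq_fun ((measurable_pi_apply j.1).comp measurable_fst) measurable_const

/-- joint law of the bits and the observations -/
noncomputable def joint (ν : Measure (V → Bool)) : Measure ((V → Bool) × (V × ℕ → ℝ)) :=
  (ν.prod (noise V)).map fun ω => (ω.1, obs ω)

instance (ν : Measure (V → Bool)) [IsProbabilityMeasure ν] : IsProbabilityMeasure (joint ν) :=
  Measure.isProbabilityMeasure_map (measurable_fst.prodMk measurable_obs).aemeasurable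

lemma noise_map_obs (x : V → Bool) : (noise V).map (fun N => obs (x, N)) = Qx x := by
  have := Measure.infinitePi_map_pi (fun _ : V × ℕ => (mub false).prod (mub true))
    (f := fun j (y : ℝ × ℝ) => if x j.1 then y.2 else y.1)
    (fun j => by split_ifs <;> fun_prop)
  unfold noise Qx obs
  rw [this]
  congr 1
  funext j
  cases h : x j.1
  · simp
  · simp

lemma integral_joint (ν : Measure (V → Bool)) [IsProbabilityMeasure ν]
    {f : (V → Bool) × (V × ℕ → ℝ) → ℝ} (hf : Measurable f) (C : ℝ) (hC : ∀ p, |f p| ≤ C) :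
    ∫ p, f p ∂joint ν = ∫ x, ∫ z, f (x, z) ∂Qx x ∂ν := by
  have hm : Measurable fun ω : (V → Bool) × (V × ℕ → ℝ × ℝ) => (ω.1, obs ω) :=
    measurable_fst.prodMk measurable_obs
  unfold joint
  rw [integral_map hm.aemeasurable hf.aestronglyMeasurable,
    integral_prod (fun ω : (V → Bool) × (V × ℕ → ℝ × ℝ) => f (ω.1, obs ω))
      (integrable_of_bdd (hf.comp hm) C fun p => hC _)]
  refine integral_congr_ae (ae_of_all _ fun x => ?_)
  have hx : Measurable fun N : V × ℕ → ℝ × ℝ => obs (x, N) :=
    measurable_obs.comp (measurable_const.prodMk measurable_id)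
  simp only
  rw [← noise_map_obs x, integral_map (f := fun z => f (x, z)) hx.aemeasurable
    (hf.comp (measurable_const.prodMk measurable_id)).aestronglyMeasurable]

lemma measurable_indicator_fun (J : Set (V × ℕ)) :
    Measurable fun z : V × ℕ → ℝ => J.indicator z := by
  refine measurable_pi_lambda _ fun j => ?_
  by_cases hj : j ∈ J
  · simp only [indicator_of_mem hj]; fun_prop
  · simp only [indicator_of_notMem hj]; fun_prop

lemma integral_Qx_local (x : V → Bool) (J : Finset (V × ℕ)) {g : (V × ℕ → ℝ) → ℝ}
    (hg : Measurable g) :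
    ∫ z, g ((J : Set (V × ℕ)).indicator z) ∂Qx x =
      ∫ z, (∏ j ∈ J, pb (x j.1) (z j)) * g ((J : Set (V × ℕ)).indicator z) ∂Q0 V := by
  classical
  let μ' : V × ℕ → Measure ℝ := fun j => if j ∈ J then mub (x j.1) else mu0
  have : ∀ j, IsProbabilityMeasure (μ' j) := fun j => by
    simp only [μ']; split_ifs <;> infer_instance
  have hI := measurable_indicator_fun (J : Set (V × ℕ))
  let f : V × ℕ → ℝ → ℝ := fun j y => if j ∈ J then y else 0
  have hf : ∀ j, Measurable (f j) := fun j => by
    simp only [f]; split_ifs <;> fun_prop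
  have e0 : (fun z : V × ℕ → ℝ => (J : Set (V × ℕ)).indicator z) = fun z j => f j (z j) := by
    funext z j
    simp [f, indicator_apply]
  have e1 : (Qx x).map (fun z => (J : Set (V × ℕ)).indicator z) =
      (Measure.infinitePi μ').map (fun z => (J : Set (V × ℕ)).indicator z) := by
    rw [e0, Qx, Measure.infinitePi_map_pi _ hf, Measure.infinitePi_map_pi _ hf]
    congr 1
    funext j
    by_cases hj : j ∈ J
    · simp [μ', hj]
    · simp [μ', f, hj]
  have e2 := infinitePi_withDensity (fun _ : V × ℕ => mu0)
    (fun j y => ENNReal.ofReal (pb (x j.1) y)) (fun j => by fun_prop) J μ'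
    (fun j hj => by simp [μ', hj, mub]) (fun j hj => by simp [μ', hj])
  rw [← integral_map hI.aemeasurable hg.aestronglyMeasurable, e1,
    integral_map hI.aemeasurable hg.aestronglyMeasurable, ← e2,
    integral_withDensity_eq_integral_toReal_smul (by fun_prop)
      (ae_of_all _ fun z => ENNReal.prod_lt_top fun j _ => ENNReal.ofReal_lt_top)]
  refine integral_congr_ae (ae_of_all _ fun z => ?_)
  simp only [ENNReal.toReal_prod, smul_eq_mul]
  congr 1
  exact Finset.prod_congr rfl fun j _ => ENNReal.toReal_ofReal (pb_pos _ _).le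

/-- indices observed before `i` -/
def bef (r : V → V → Prop) (i : V × ℕ) : Set (V × ℕ) :=
  {j | j.2 < i.2 ∨ (j.2 = i.2 ∧ r j.1 i.1)}

open Classical in
/-- indices observed before `i`, at sites of `F` -/
noncomputable def befF (r : V → V → Prop) (F : Finset V) (i : V × ℕ) : Finset (V × ℕ) :=
  (F ×ˢ Finset.range (i.2 + 1)).filter (· ∈ bef r i)

lemma mem_befF {r : V → V → Prop} {F : Finset V} {i j : V × ℕ} :
    j ∈ befF r F i ↔ j.1 ∈ F ∧ j ∈ bef r i := by
  simp only [befF, Finset.mem_filter, Finset.mem_product, Finset.mem_range, bef, mem_ofPred_eq]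
  constructor
  · rintro ⟨⟨h1, _⟩, h2⟩; exact ⟨h1, h2⟩
  · rintro ⟨h1, h2⟩
    refine ⟨⟨h1, ?_⟩, h2⟩
    rcases h2 with h | h <;> omega

lemma prod_pb_eq_wt (r : V → V → Prop) (F : Finset V) (i : V × ℕ) (x : V → Bool)
    (z : V × ℕ → ℝ) : ∏ j ∈ befF r F i, pb (x j.1) (z j) = wt F (field r z i) x := by
  classical
  unfold befF wt
  rw [Finset.prod_filter, Finset.prod_product, Real.exp_sum]
  refine Finset.prod_congr rfl fun w _ => ?_
  rw [Finset.prod_range_succ]
  have h1 : ∏ j ∈ Finset.range i.2, (if (w, j) ∈ bef r i then pb (x w) (z (w, j)) else 1) =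
      ∏ j ∈ Finset.range i.2, pb (x w) (z (w, j)) := by
    refine Finset.prod_congr rfl fun j hj => if_pos (Or.inl (Finset.mem_range.1 hj))
  simp only at h1 ⊢
  rw [h1]
  have h2 : ((w, i.2) ∈ bef r i) ↔ r w i.1 := by simp [bef]
  cases hx : x w
  · simp [pb]
  · simp only [pb, if_true, field, Real.exp_add, Real.exp_sum, exp_eta]
    congr 1
    by_cases h : r w i.1
    · simp [h, h2, exp_eta]
    · simp [h, h2]

lemma field_congr (r : V → V → Prop) (i : V × ℕ) (w : V) {z z' : V × ℕ → ℝ}
    (h : ∀ j ∈ bef r i, j.1 = w → z j = z' j) : field r z i w = field r z' i w := by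
  unfold field
  congr 1
  · refine Finset.sum_congr rfl fun j hj => ?_
    rw [h (w, j) (Or.inl (Finset.mem_range.1 hj)) rfl]
  · split_ifs with hr
    · rw [h (w, i.2) (Or.inr ⟨rfl, hr⟩) rfl]
    · rfl

lemma field_indicator_bef (r : V → V → Prop) (i : V × ℕ) (z : V × ℕ → ℝ) :
    field r ((bef r i).indicator z) i = field r z i := by
  funext w
  exact field_congr r i w fun j hj _ => indicator_of_mem hj _

lemma measurable_field' (r : V → V → Prop) (i : V × ℕ) :
    Measurable fun z : V × ℕ → ℝ => field r z i :=
  measurable_field (r := fun _ => r) (fun _ _ => MeasurableSet.const _) measurable_id i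

section Bayes

variable (ν : Measure (V → Bool)) [IsProbabilityMeasure ν]

lemma bayes_aux (r : V → V → Prop) (F : Finset V) (i : V × ℕ) {g : (V × ℕ → ℝ) → ℝ}
    (hg : Measurable g) (hg1 : ∀ z, |g z| ≤ 1) {Y : (V → Bool) → ℝ} (hY : Measurable Y)
    (hY1 : ∀ x, |Y x| ≤ 1) :
    ∫ p, g ((befF r F i : Set (V × ℕ)).indicator p.2) * Y p.1 ∂joint ν =
      ∫ z, g ((befF r F i : Set (V × ℕ)).indicator z) * ∫ x, Y x * wt F (field r z i) x ∂ν
        ∂Q0 V := by
  have hI := measurable_indicator_fun (befF r F i : Set (V × ℕ))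
  rw [integral_joint ν (f := fun p => g ((befF r F i : Set (V × ℕ)).indicator p.2) * Y p.1)
    ((hg.comp (hI.comp measurable_snd)).mul (hY.comp measurable_fst)) (1 * 1)
    (fun p => by rw [abs_mul]; exact mul_le_mul (hg1 _) (hY1 _) (abs_nonneg _) zero_le_one)]
  have e1 : ∀ x, ∫ z, g ((befF r F i : Set (V × ℕ)).indicator z) * Y x ∂Qx x =
      ∫ z, g ((befF r F i : Set (V × ℕ)).indicator z) * (Y x * wt F (field r z i) x) ∂Q0 V := by
    intro x
    rw [integral_Qx_local x (befF r F i) (g := fun z => g z * Y x) (hg.mul_const _)]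
    refine integral_congr_ae (ae_of_all _ fun z => ?_)
    simp only [prod_pb_eq_wt]; ring
  simp only [e1]
  rw [integral_integral_swap]
  · simp only [integral_const_mul]
  · refine integrable_of_bdd ?_ (1 * (1 * (11 / 10) ^ (befF r F i).card)) fun p => ?_
    · refine (hg.comp (hI.comp measurable_snd)).mul ((hY.comp measurable_fst).mul ?_)
      exact (measurable_wt₂ F).comp
        (((measurable_field' r i).comp measurable_snd).prodMk measurable_fst)
    · simp only [Function.uncurry, abs_mul]
      refine mul_le_mul (hg1 _) (mul_le_mul (hY1 _) ?_ (abs_nonneg _) zero_le_one)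
        (by positivity) zero_le_one
      rw [abs_of_pos (wt_pos _ _ _), ← prod_pb_eq_wt]
      refine (Finset.prod_le_prod (fun j _ => (pb_pos _ _).le) fun j _ => pb_le _ _).trans ?_
      rw [Finset.prod_const]

omit [IsProbabilityMeasure ν] in
lemma tilt_field_indicator (r : V → V → Prop) (F : Finset V) (i : V × ℕ) (z : V × ℕ → ℝ) :
    tilt ν F i.1 (field r ((befF r F i : Set (V × ℕ)).indicator z) i) =
      tilt ν F i.1 (field r z i) := by
  refine tilt_congr ν _ fun w hw => field_congr r i w fun j hj hjw => indicator_of_mem ?_ _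
  exact Finset.mem_coe.2 (mem_befF.2 ⟨hjw ▸ hw, hj⟩)

lemma bayes_fin (r : V → V → Prop) (F : Finset V) (i : V × ℕ) {g : (V × ℕ → ℝ) → ℝ}
    (hg : Measurable g) (hg1 : ∀ z, |g z| ≤ 1) :
    ∫ p, g ((befF r F i : Set (V × ℕ)).indicator p.2) * tilt ν F i.1 (field r p.2 i) ∂joint ν =
      ∫ p, g ((befF r F i : Set (V × ℕ)).indicator p.2) * ind (p.1 i.1) ∂joint ν := by
  rw [bayes_aux ν r F i hg hg1 (Y := fun x => ind (x i.1))
    (measurable_ind.comp (measurable_pi_apply _)) (fun x => abs_ind_le _)]
  have := bayes_aux ν r F i (g := fun z => g z * tilt ν F i.1 (field r z i))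
    (hg.mul ((measurable_tilt ν F i.1).comp (measurable_field' r i)))
    (fun z => by
      rw [abs_mul, abs_of_nonneg (tilt_nonneg ν _ _ _)]
      simpa using mul_le_mul (hg1 z) (tilt_le_one ν _ _ _) (tilt_nonneg ν _ _ _) zero_le_one)
    (Y := fun _ => 1) measurable_const (fun _ => by simp)
  simp only [tilt_field_indicator, mul_one, one_mul] at this
  rw [this]
  refine integral_congr_ae (ae_of_all _ fun z => ?_)
  simp only [tilt]
  rw [mul_assoc, div_mul_cancel₀ _ (integral_wt_pos ν _ _).ne']

/-- the filtration of the observations before `i` at sites of `F n`. -/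
noncomputable def filt (r : V → V → Prop) (F : ℕ → Finset V) (hF : Monotone F) (i : V × ℕ) :
    Filtration ℕ (inferInstance : MeasurableSpace ((V → Bool) × (V × ℕ → ℝ))) where
  seq n := MeasurableSpace.comap
    (fun p : (V → Bool) × (V × ℕ → ℝ) => (befF r (F n) i : Set (V × ℕ)).indicator p.2)
    inferInstance
  mono' m n hmn := by
    have : (fun p : (V → Bool) × (V × ℕ → ℝ) => (befF r (F m) i : Set (V × ℕ)).indicator p.2) =
        (fun z => (befF r (F m) i : Set (V × ℕ)).indicator z) ∘
        (fun p : (V → Bool) × (V × ℕ → ℝ) => (befF r (F n) i : Set (V × ℕ)).indicator p.2) := by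
      funext p
      simp only [Function.comp, indicator_indicator]
      congr 1
      refine (inter_eq_left.2 fun j hj => ?_).symm
      have := mem_befF.1 (Finset.mem_coe.1 hj)
      exact Finset.mem_coe.2 (mem_befF.2 ⟨hF hmn this.1, this.2⟩)
    simp only
    rw [this, ← MeasurableSpace.comap_comp]
    exact MeasurableSpace.comap_mono (measurable_indicator_fun _).comap_le
  le' n := ((measurable_indicator_fun _).comp measurable_snd).comap_le

lemma condExp_filt (r : V → V → Prop) (F : ℕ → Finset V) (hF : Monotone F) (i : V × ℕ) (n : ℕ) :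
    (fun p => tilt ν (F n) i.1 (field r p.2 i)) =ᵐ[joint ν]
      (joint ν)[fun p => ind (p.1 i.1) | filt r F hF i n] := by
  have hmT : Measurable fun p : (V → Bool) × (V × ℕ → ℝ) => tilt ν (F n) i.1 (field r p.2 i) :=
    (measurable_tilt ν _ _).comp ((measurable_field' r i).comp measurable_snd)
  have hmX : Measurable fun p : (V → Bool) × (V × ℕ → ℝ) => ind (p.1 i.1) :=
    measurable_ind.comp ((measurable_pi_apply _).comp measurable_fst)
  refine ae_eq_condExp_of_forall_setIntegral_eq ((filt r F hF i).le n)
    (integrable_of_bdd hmX 1 fun p => abs_ind_le _) (fun s _ _ => ?_) (fun s hs _ => ?_) ?_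
  · exact (integrable_of_bdd hmT 1 fun p => by
      rw [abs_of_nonneg (tilt_nonneg ν _ _ _)]; exact tilt_le_one ν _ _ _).integrableOn
  · have hs' : MeasurableSet s := (filt r F hF i).le n s hs
    obtain ⟨B, hB, rfl⟩ := hs
    rw [← integral_indicator hs', ← integral_indicator hs']
    have := bayes_fin ν r (F n) i (g := B.indicator 1) (measurable_one.indicator hB)
      (fun z => by by_cases hz : z ∈ B <;> simp [hz])
    convert this using 3 with p p
    · by_cases hp : (befF r (F n) i : Set (V × ℕ)).indicator p.2 ∈ B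
      · rw [indicator_of_mem (by exact hp), indicator_of_mem hp]; simp
      · rw [indicator_of_notMem (by exact hp), indicator_of_notMem hp]; simp
    · by_cases hp : (befF r (F n) i : Set (V × ℕ)).indicator p.2 ∈ B
      · rw [indicator_of_mem (by exact hp), indicator_of_mem hp]; simp
      · rw [indicator_of_notMem (by exact hp), indicator_of_notMem hp]; simp
  · refine Measurable.aestronglyMeasurable ?_
    have : (fun p : (V → Bool) × (V × ℕ → ℝ) => tilt ν (F n) i.1 (field r p.2 i)) =
        (fun z => tilt ν (F n) i.1 (field r z i)) ∘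
        (fun p : (V → Bool) × (V × ℕ → ℝ) => (befF r (F n) i : Set (V × ℕ)).indicator p.2) := by
      funext p
      simp only [Function.comp, tilt_field_indicator]
    rw [this]
    exact ((measurable_tilt ν _ _).comp (measurable_field' r i)).comp (comap_measurable _)

/-- the predictor agrees with limits of finite-volume posterior means along some exhaustion. -/
def Consistent (M : V → (V → ℝ) → ℝ) : Prop :=
  ∀ v, ∃ F : ℕ → Finset V, Monotone F ∧ (∀ w, ∃ n, w ∈ F n) ∧
    ∀ h ℓ, Tendsto (fun n => tilt ν (F n) v h) atTop (𝓝 ℓ) → M v h = ℓ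

lemma key_pred {M : V → (V → ℝ) → ℝ} (hc : Consistent ν M) (r : V → V → Prop) (i : V × ℕ)
    {g : (V × ℕ → ℝ) → ℝ} (hg : Measurable g) (hg1 : ∀ z, |g z| ≤ 1) :
    ∫ p, g ((bef r i).indicator p.2) * ind (p.1 i.1) ∂joint ν =
      ∫ p, g ((bef r i).indicator p.2) * M i.1 (field r p.2 i) ∂joint ν := by
  obtain ⟨F, hF, hFu, hM⟩ := hc i.1
  have hle : (⨆ n, filt r F hF i n) ≤ (inferInstance : MeasurableSpace _) :=
    iSup_le fun n => (filt r F hF i).le n
  have hmX : Measurable fun p : (V → Bool) × (V × ℕ → ℝ) => ind (p.1 i.1) :=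
    measurable_ind.comp ((measurable_pi_apply _).comp measurable_fst)
  have h1 : (fun p => M i.1 (field r p.2 i)) =ᵐ[joint ν]
      (joint ν)[fun p => ind (p.1 i.1) | ⨆ n, filt r F hF i n] := by
    have h2 := tendsto_ae_condExp (μ := joint ν) (ℱ := filt r F hF i) (fun p => ind (p.1 i.1))
    have h3 := ae_all_iff.2 fun n => condExp_filt ν r F hF i n
    filter_upwards [h2, h3] with p hp hp'
    apply hM
    simpa only [← hp'] using hp
  have hW : Measurable[⨆ n, filt r F hF i n]
      fun p : (V → Bool) × (V × ℕ → ℝ) => (bef r i).indicator p.2 := by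
    refine @measurable_pi_lambda _ _ _ (⨆ n, filt r F hF i n) _ _ fun j => ?_
    by_cases hj : j ∈ bef r i
    · obtain ⟨n, hn⟩ := hFu j.1
      have hj' : j ∈ (befF r (F n) i : Set (V × ℕ)) := Finset.mem_coe.2 (mem_befF.2 ⟨hn, hj⟩)
      have : (fun p : (V → Bool) × (V × ℕ → ℝ) => (bef r i).indicator p.2 j) =
          (fun z => z j) ∘ (fun p : (V → Bool) × (V × ℕ → ℝ) =>
            (befF r (F n) i : Set (V × ℕ)).indicator p.2) := by
        funext p
        simp only [Function.comp, indicator_of_mem hj, indicator_of_mem hj']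
      rw [this]
      exact ((measurable_pi_apply j).comp (comap_measurable _)).mono
        (le_iSup (fun n => filt r F hF i n) n) le_rfl
    · simp only [indicator_of_notMem hj]
      exact measurable_const
  have hW' : StronglyMeasurable[⨆ n, filt r F hF i n]
      fun p : (V → Bool) × (V × ℕ → ℝ) => g ((bef r i).indicator p.2) :=
    (hg.comp hW).stronglyMeasurable
  have h4 := condExp_stronglyMeasurable_mul_of_bound hle (μ := joint ν) hW'
    (integrable_of_bdd hmX 1 fun p => abs_ind_le _) 1 (ae_of_all _ fun p => hg1 _)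
  rw [← integral_condExp hle]
  refine (integral_congr_ae h4).trans (integral_congr_ae ?_)
  filter_upwards [h1] with p hp
  simp only [Pi.mul_apply, hp]

end Bayes

section Peel

variable (ν : Measure (V → Bool)) [IsProbabilityMeasure ν]

/-- probability that the transformed observation falls in `t`. -/
noncomputable def gam (t : Set ℝ) (b : Bool) (m : ℝ) : ℝ :=
  ∫ y, t.indicator (1 : ℝ → ℝ) (y - m * gg y / 10) ∂mub b

lemma abs_indicator_one_le {α : Type*} (t : Set α) (a : α) : |t.indicator (1 : α → ℝ) a| ≤ 1 := by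
  by_cases h : a ∈ t <;> simp [h]

lemma measurable_gam {t : Set ℝ} (ht : MeasurableSet t) (b : Bool) : Measurable (gam t b) := by
  unfold gam
  exact (StronglyMeasurable.integral_prod_right'
    (f := fun p : ℝ × ℝ => t.indicator (1 : ℝ → ℝ) (p.2 - p.1 * gg p.2 / 10))
    (((measurable_one.indicator ht).comp (by fun_prop)).stronglyMeasurable)).measurable

lemma gam_nonneg (t : Set ℝ) (b : Bool) (m : ℝ) : 0 ≤ gam t b m :=
  integral_nonneg fun _ => indicator_nonneg (fun _ _ => zero_le_one) _

lemma gam_le_one (t : Set ℝ) (b : Bool) (m : ℝ) : gam t b m ≤ 1 := by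
  have := norm_integral_le_of_norm_le_const (μ := mub b) (C := 1)
    (f := fun y => t.indicator (1 : ℝ → ℝ) (y - m * gg y / 10))
    (ae_of_all _ fun y => abs_indicator_one_le t _)
  simp only [probReal_univ, mul_one] at this
  exact (le_abs_self _).trans this

lemma gam_mix {t : Set ℝ} (ht : MeasurableSet t) {m : ℝ} (h0 : 0 ≤ m) (h1 : m ≤ 1) :
    gam t false m + (gam t true m - gam t false m) * m = mu0.real t := by
  have hm : Measurable fun y => t.indicator (1 : ℝ → ℝ) (y - m * gg y / 10) :=
    (measurable_one.indicator ht).comp (by fun_prop)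
  have hi : ∀ b, Integrable (fun y => pb b y * t.indicator (1 : ℝ → ℝ) (y - m * gg y / 10)) mu0 :=
    fun b => integrable_of_bdd ((measurable_pb b).mul hm) (11 / 10 * 1) fun y => by
      rw [abs_mul, abs_of_pos (pb_pos b y)]
      exact mul_le_mul (pb_le b y) (abs_indicator_one_le t _) (abs_nonneg _) (by norm_num)
  have := integral_cdf m h0 h1 (t.indicator 1)
  rw [integral_indicator_one ht] at this
  rw [← this]
  unfold gam
  have hi' : Integrable (fun y => (pb true y * t.indicator (1 : ℝ → ℝ) (y - m * gg y / 10) -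
      pb false y * t.indicator (1 : ℝ → ℝ) (y - m * gg y / 10)) * m) mu0 :=
    ((hi true).sub (hi false)).mul_const m
  rw [integral_mub, integral_mub, ← integral_sub (hi true) (hi false), ← integral_mul_const,
    ← integral_add (hi false) hi']
  refine integral_congr_ae (ae_of_all _ fun y => ?_)
  simp only [pb, if_true, Bool.false_eq_true, if_false]
  ring

lemma peel {M : V → (V → ℝ) → ℝ} (hM : GoodPred M) (hMm : ∀ v, Measurable (M v))
    (hc : Consistent ν M) (r : V → V → Prop) (hr : ∀ v, ¬ r v v) (i : V × ℕ)
    {g : (V × ℕ → ℝ) → ℝ} (hg : Measurable g) (hg1 : ∀ z, |g z| ≤ 1)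
    {t : Set ℝ} (ht : MeasurableSet t) :
    ∫ p, g ((bef r i).indicator p.2) * t.indicator (1 : ℝ → ℝ) (ros M r p.2 i) ∂joint ν =
      (∫ p, g ((bef r i).indicator p.2) ∂joint ν) * mu0.real t := by
  classical
  have hI := measurable_indicator_fun (bef r i)
  have hros : Measurable fun z : V × ℕ → ℝ => ros M r z i :=
    (measurable_pi_apply i).comp (measurable_ros (M := fun _ => M) (r := fun _ => r)
      (fun v => (hMm v).comp measurable_snd) (fun _ _ => MeasurableSet.const _) measurable_id)
  have hm0 : Measurable fun z : V × ℕ → ℝ => M i.1 (field r z i) :=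
    (hMm _).comp (measurable_field' r i)
  have hi : i ∉ bef r i := by simp [bef, hr]
  have hA : Measurable fun z : V × ℕ → ℝ =>
      g ((bef r i).indicator z) * t.indicator (1 : ℝ → ℝ) (ros M r z i) :=
    (hg.comp hI).mul ((measurable_one.indicator ht).comp hros)
  have hAb : ∀ z : V × ℕ → ℝ,
      |g ((bef r i).indicator z) * t.indicator (1 : ℝ → ℝ) (ros M r z i)| ≤ 1 * 1 := fun z => by
    rw [abs_mul]
    exact mul_le_mul (hg1 _) (abs_indicator_one_le _ _) (abs_nonneg _) zero_le_one
  rw [integral_joint ν
    (f := fun p => g ((bef r i).indicator p.2) * t.indicator (1 : ℝ → ℝ) (ros M r p.2 i))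
    (hA.comp measurable_snd) (1 * 1) (fun p => hAb _)]
  have e1 : ∀ x : V → Bool,
      ∫ z, g ((bef r i).indicator z) * t.indicator (1 : ℝ → ℝ) (ros M r z i) ∂Qx x =
      ∫ z, g ((bef r i).indicator z) * gam t (x i.1) (M i.1 (field r z i)) ∂Qx x := by
    intro x
    unfold Qx
    rw [integral_infinitePi_update _ i hA _ hAb]
    refine integral_congr_ae (ae_of_all _ fun z => ?_)
    simp only
    unfold gam
    rw [← integral_const_mul]
    refine integral_congr_ae (ae_of_all _ fun y => ?_)
    have h1 : (bef r i).indicator (Function.update z i y) = (bef r i).indicator z := by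
      refine indicator_congr fun j hj => ?_
      exact Function.update_of_ne (show j ≠ i from fun h => hi (h ▸ hj)) _ _
    have h2 : field r (Function.update z i y) i = field r z i := by
      rw [← field_indicator_bef, h1, field_indicator_bef]
    simp only [h1, ros, h2, Function.update_self]
  simp only [e1]
  have hG : ∀ b, Measurable fun z : V × ℕ → ℝ => gam t b (M i.1 (field r z i)) :=
    fun b => (measurable_gam ht b).comp hm0
  have hD : ∀ m, |gam t true m - gam t false m| ≤ 1 := fun m => by
    have := gam_nonneg t true m; have := gam_nonneg t false m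
    have := gam_le_one t true m; have := gam_le_one t false m
    rw [abs_le]; constructor <;> linarith
  have hX : Measurable fun p : (V → Bool) × (V × ℕ → ℝ) => ind (p.1 i.1) :=
    measurable_ind.comp ((measurable_pi_apply _).comp measurable_fst)
  let A : (V → Bool) × (V × ℕ → ℝ) → ℝ := fun p =>
    g ((bef r i).indicator p.2) * gam t false (M i.1 (field r p.2 i))
  let g' : (V × ℕ → ℝ) → ℝ := fun z =>
    g z * (gam t true (M i.1 (field r z i)) - gam t false (M i.1 (field r z i)))
  have hg' : Measurable g' := hg.mul ((hG true).sub (hG false))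
  have hg'1 : ∀ z, |g' z| ≤ 1 := fun z => by
    simp only [g', abs_mul]
    simpa using mul_le_mul (hg1 z) (hD _) (abs_nonneg _) zero_le_one
  have hAm : Measurable A := (hg.comp (hI.comp measurable_snd)).mul ((hG false).comp measurable_snd)
  have hA1 : ∀ p, |A p| ≤ 1 := fun p => by
    simp only [A, abs_mul, abs_of_nonneg (gam_nonneg _ _ _)]
    simpa using mul_le_mul (hg1 _) (gam_le_one t false _) (gam_nonneg _ _ _) zero_le_one
  have hBm : Measurable fun p : (V → Bool) × (V × ℕ → ℝ) =>
      g' ((bef r i).indicator p.2) * ind (p.1 i.1) := (hg'.comp (hI.comp measurable_snd)).mul hX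
  have hB1 : ∀ p : (V → Bool) × (V × ℕ → ℝ),
      |g' ((bef r i).indicator p.2) * ind (p.1 i.1)| ≤ 1 := fun p => by
    rw [abs_mul]
    simpa using mul_le_mul (hg'1 _) (abs_ind_le _) (abs_nonneg _) zero_le_one
  have hCm : Measurable fun p : (V → Bool) × (V × ℕ → ℝ) =>
      g' ((bef r i).indicator p.2) * M i.1 (field r p.2 i) :=
    (hg'.comp (hI.comp measurable_snd)).mul (hm0.comp measurable_snd)
  have hC1 : ∀ p : (V → Bool) × (V × ℕ → ℝ),
      |g' ((bef r i).indicator p.2) * M i.1 (field r p.2 i)| ≤ 1 := fun p => by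
    rw [abs_mul, abs_of_nonneg (hM.nonneg _ _)]
    simpa using mul_le_mul (hg'1 _) (hM.le_one _ _) (hM.nonneg _ _) zero_le_one
  have e2 := integral_joint ν (f := fun p => A p + g' ((bef r i).indicator p.2) * ind (p.1 i.1))
    (hAm.add hBm) (1 + 1) fun p => (abs_add_le _ _).trans (add_le_add (hA1 p) (hB1 p))
  have e3 : ∀ (x : V → Bool) (z : V × ℕ → ℝ),
      g ((bef r i).indicator z) * gam t (x i.1) (M i.1 (field r z i)) =
      A (x, z) + g' ((bef r i).indicator z) * ind (x i.1) := by
    intro x z
    simp only [A, g', field_indicator_bef, ind]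
    cases x i.1
    · simp
    · simp only [if_true]; ring
  simp only [e3]
  rw [← e2, integral_add (integrable_of_bdd hAm 1 hA1) (integrable_of_bdd hBm 1 hB1),
    key_pred ν hc r i hg' hg'1,
    ← integral_add (integrable_of_bdd hAm 1 hA1) (integrable_of_bdd hCm 1 hC1),
    ← integral_mul_const]
  refine integral_congr_ae (ae_of_all _ fun p => ?_)
  simp only [A, g', field_indicator_bef]
  rw [← gam_mix ht (hM.nonneg i.1 (field r p.2 i)) (hM.le_one _ _)]
  ring

lemma ros_indicator (M : V → (V → ℝ) → ℝ) (r : V → V → Prop) (J : Set (V × ℕ)) (i : V × ℕ)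
    (hi : i ∈ J) (hJ : bef r i ⊆ J) (z : V × ℕ → ℝ) :
    ros M r (J.indicator z) i = ros M r z i := by
  have : field r (J.indicator z) i = field r z i := by
    funext w
    exact field_congr r i w fun j hj _ => indicator_of_mem (hJ hj) _
  simp only [ros, this, indicator_of_mem hi]

lemma law_ros {M : V → (V → ℝ) → ℝ} (hM : GoodPred M) (hMm : ∀ v, Measurable (M v))
    (hc : Consistent ν M) {α : Type*} [LinearOrder α] (τ : V → α) (hτ : Function.Injective τ) :
    (joint ν).map (fun p => ros M (fun w v => τ w < τ v) p.2) = Q0 V := by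
  classical
  set r : V → V → Prop := fun w v => τ w < τ v with hr
  have hros : Measurable fun z : V × ℕ → ℝ => ros M r z :=
    measurable_ros (M := fun _ => M) (r := fun _ => r)
      (fun v => (hMm v).comp measurable_snd) (fun _ _ => MeasurableSet.const _) measurable_id
  refine Measure.eq_infinitePi _ fun s t ht => ?_
  have hst : MeasurableSet ((s : Set (V × ℕ)).pi t) :=
    MeasurableSet.pi s.countable_toSet fun j _ => ht j
  have key : ∫ p, ∏ j ∈ s, (t j).indicator (1 : ℝ → ℝ) (ros M r p.2 j) ∂joint ν =
      ∏ j ∈ s, mu0.real (t j) := by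
    clear hst
    have hbef : ∀ i j : V × ℕ, j ∈ bef r i ↔ toLex (j.2, τ j.1) < toLex (i.2, τ i.1) := by
      intro i j
      simp [bef, Prod.Lex.lt_iff, hr]
    induction s using Finset.induction_on_max_value (fun j : V × ℕ => toLex (j.2, τ j.1)) with
    | empty => simp
    | insert i s his hmax ih =>
      have hlt : ∀ j ∈ s, j ∈ bef r i := by
        intro j hj
        rw [hbef]
        refine lt_of_le_of_ne (hmax j hj) fun h => his ?_
        have h' : (j.2, τ j.1) = (i.2, τ i.1) := toLex.injective h
        have : j = i := Prod.ext (hτ (congrArg Prod.snd h')) (congrArg Prod.fst h')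
        exact this ▸ hj
      have := peel ν hM hMm hc r (fun v => lt_irrefl _) i
        (g := fun z => ∏ j ∈ s, (t j).indicator (1 : ℝ → ℝ) (ros M r z j))
        (Finset.measurable_prod _ fun j _ =>
          (measurable_one.indicator (ht j)).comp ((measurable_pi_apply j).comp hros))
        (fun z => by
          rw [Finset.abs_prod]
          exact Finset.prod_le_one (fun _ _ => abs_nonneg _) fun j _ => abs_indicator_one_le _ _)
        (ht i)
      have e : ∀ z : V × ℕ → ℝ,
          ∏ j ∈ s, (t j).indicator (1 : ℝ → ℝ) (ros M r ((bef r i).indicator z) j) =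
          ∏ j ∈ s, (t j).indicator (1 : ℝ → ℝ) (ros M r z j) := by
        intro z
        refine Finset.prod_congr rfl fun j hj => ?_
        rw [ros_indicator M r _ j (hlt j hj)]
        intro k hk
        rw [hbef] at hk ⊢
        exact hk.trans ((hbef _ _).1 (hlt j hj))
      simp only [e] at this
      simp only [Finset.prod_insert his]
      rw [← ih, mul_comm, ← this]
      refine integral_congr_ae (ae_of_all _ fun p => mul_comm _ _)
  have e1 : ((joint ν).map (fun p => ros M r p.2)).real ((s : Set (V × ℕ)).pi t) =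
      ∏ j ∈ s, mu0.real (t j) := by
    rw [← key, ← integral_indicator_one hst, integral_map (φ := fun p : (V → Bool) × (V × ℕ → ℝ) =>
      ros M r p.2) (hros.comp measurable_snd).aemeasurable (measurable_one.indicator hst).aestronglyMeasurable]
    refine integral_congr_ae (ae_of_all _ fun p => ?_)
    simp only
    by_cases hz : ros M r p.2 ∈ (s : Set (V × ℕ)).pi t
    · rw [indicator_of_mem hz, Finset.prod_eq_one]
      · rfl
      · intro j hj
        rw [indicator_of_mem (hz j hj)]; rfl
    · rw [indicator_of_notMem hz]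
      simp only [Set.mem_pi, Finset.mem_coe, not_forall] at hz
      obtain ⟨j, hj, hz⟩ := hz
      rw [Finset.prod_eq_zero hj (indicator_of_notMem hz _)]
  have : IsProbabilityMeasure ((joint ν).map (fun p => ros M r p.2)) :=
    Measure.isProbabilityMeasure_map (hros.comp measurable_snd).aemeasurable
  rw [← ENNReal.toReal_eq_toReal_iff' (measure_ne_top _ _)
    (ENNReal.prod_ne_top fun j _ => measure_ne_top _ _), ENNReal.toReal_prod]
  exact e1

lemma ae_avg (f : ℝ × ℝ → ℝ) (hf : Measurable f)
    (hi : Integrable f ((mub false).prod (mub true))) (v : V) :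
    ∀ᵐ N ∂noise V, Tendsto (fun n : ℕ => (∑ j ∈ Finset.range n, f (N (v, j))) / n) atTop
      (𝓝 (∫ y, f y ∂(mub false).prod (mub true))) := by
  have hlaw : ∀ j : ℕ, (noise V).map (fun N => N (v, j)) = (mub false).prod (mub true) :=
    fun j => Measure.infinitePi_map_eval _ _
  have hev : ∀ j : ℕ, Measurable fun N : V × ℕ → ℝ × ℝ => N (v, j) := fun j => by fun_prop
  have := strong_law_ae_real (μ := noise V) (fun j N => f (N (v, j)))
    (by
      rw [← hlaw 0] at hi
      exact (integrable_map_measure hf.aestronglyMeasurable (hev 0).aemeasurable).1 hi)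
    (fun a b hab => (iIndepFun_infinitePi (X := fun _ : V × ℕ => f) (fun _ => hf)).indepFun
      (show (v, a) ≠ (v, b) from fun h => hab (congrArg Prod.snd h)))
    (fun j => IdentDistrib.comp ⟨(hev j).aemeasurable, (hev 0).aemeasurable, by
      rw [hlaw, hlaw]⟩ hf)
  rwa [← integral_map (hev 0).aemeasurable hf.aestronglyMeasurable, hlaw] at this

omit [IsProbabilityMeasure ν] in
lemma ae_decode [Countable V] : ∀ᵐ ω ∂ν.prod (noise V), decode (obs ω) = ω.1 := by
  have h1 := ae_all_iff.2 fun v : V => ae_avg Prod.fst measurable_fst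
    ((integrable_id_mub false).comp_fst (mub true)) v
  have h2 := ae_all_iff.2 fun v : V => ae_avg Prod.snd measurable_snd
    ((integrable_id_mub true).comp_snd (mub false)) v
  have e1 : ∫ y : ℝ × ℝ, y.1 ∂(mub false).prod (mub true) = 1 / 2 := by
    rw [integral_fun_fst (fun z : ℝ => z), mub_false, integral_id_mu0]; simp
  have e2 : ∫ y : ℝ × ℝ, y.2 ∂(mub false).prod (mub true) = 31 / 60 := by
    rw [integral_fun_snd (fun z : ℝ => z), integral_id_mub_true]; simp
  rw [e1] at h1
  rw [e2] at h2
  filter_upwards [Measure.quasiMeasurePreserving_snd.ae h1,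
    Measure.quasiMeasurePreserving_snd.ae h2] with ω hω1 hω2
  funext v
  unfold decode obs
  cases hx : ω.1 v
  · simp only [hx, Bool.false_eq_true, if_false, decide_eq_false_iff_not, not_eventually]
    refine Eventually.frequently ?_
    filter_upwards [(hω1 v).eventually (gt_mem_nhds (by norm_num : (1 / 2 : ℝ) < 61 / 120))]
      with k hk
    exact not_lt.2 hk.le
  · simp only [hx, if_true, decide_eq_true_eq]
    exact (hω2 v).eventually (lt_mem_nhds (by norm_num : (61 / 120 : ℝ) < 31 / 60))

/-- the core law identity. -/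
theorem law_Phi [Countable V] {M : V → (V → ℝ) → ℝ} (hM : GoodPred M)
    (hMm : ∀ v, Measurable (M v)) (hc : Consistent ν M) {α : Type*} [LinearOrder α] (τ : V → α)
    (hτ : Function.Injective τ) :
    (Q0 V).map (Phi M fun w v => τ w < τ v) = ν := by
  set r : V → V → Prop := fun w v => τ w < τ v with hr
  have hros : Measurable fun z : V × ℕ → ℝ => ros M r z :=
    measurable_ros (M := fun _ => M) (r := fun _ => r)
      (fun v => (hMm v).comp measurable_snd) (fun _ _ => MeasurableSet.const _) measurable_id
  have hPhi : Measurable (Phi M r) :=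
    measurable_Phi (M := fun _ => M) (r := fun _ => r)
      (fun v => (hMm v).comp measurable_snd) (fun _ _ => MeasurableSet.const _) measurable_id
  have hros' : Measurable fun p : (V → Bool) × (V × ℕ → ℝ) => ros M r p.2 :=
    hros.comp measurable_snd
  rw [← law_ros ν hM hMm hc τ hτ, Measure.map_map hPhi hros', joint,
    Measure.map_map (hPhi.comp hros') (measurable_fst.prodMk measurable_obs)]
  have : ((Phi M r ∘ fun p : (V → Bool) × (V × ℕ → ℝ) => ros M r p.2) ∘
      fun ω : (V → Bool) × (V × ℕ → ℝ × ℝ) => (ω.1, obs ω)) =ᵐ[ν.prod (noise V)] Prod.fst := by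
    filter_upwards [ae_decode ν] with ω hω
    simp only [Function.comp, Phi, sol_ros hM, hω]
  rw [Measure.map_congr this, Measure.map_fst_prod]
  simp

end Peel

end Crest.Agent.R168
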