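import Mathlib

set_option autoImplicit false

/-!
Sequential noisy revealing of a binary field and the explicit inverse of its Rosenblatt transform.
Deterministic part: definitions, contraction estimate, naturality, measurability.
-/

namespace Crest.Agent.R168

open Filter Topology

/-- clamp a real number to `[0,1]`. -/
noncomputable def clamp (z : ℝ) : ℝ := max 0 (min 1 z)

/-- density of the observation when the bit is `true`. -/
noncomputable def dens (z : ℝ) : ℝ := 1 + (2 * clamp z - 1) / 10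

/-- log-likelihood ratio of one observation. -/
noncomputable def eta (z : ℝ) : ℝ := Real.log (dens z)

/-- the quadratic correction of the distribution function. -/
noncomputable def gg (z : ℝ) : ℝ := clamp z * (1 - clamp z)

variable {V : Type*}

open Classical in
/-- the field accumulated at site `w` before the observation `i`. -/
noncomputable def field (r : V → V → Prop) (ζ : V × ℕ → ℝ) (i : V × ℕ) (w : V) : ℝ :=
  ∑ j ∈ Finset.range i.2, eta (ζ (w, j)) + if r w i.1 then eta (ζ (w, i.2)) else 0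

/-- one step of the fixed point iteration. -/
noncomputable def step (M : V → (V → ℝ) → ℝ) (r : V → V → Prop) (U ζ : V × ℕ → ℝ) :
    V × ℕ → ℝ :=
  fun i => U i + M i.1 (field r ζ i) * gg (ζ i) / 10

/-- the Rosenblatt transform. -/
noncomputable def ros (M : V → (V → ℝ) → ℝ) (r : V → V → Prop) (ζ : V × ℕ → ℝ) :
    V × ℕ → ℝ :=
  fun i => ζ i - M i.1 (field r ζ i) * gg (ζ i) / 10

/-- the limit of the fixed point iteration. -/
noncomputable def sol (M : V → (V → ℝ) → ℝ) (r : V → V → Prop) (U : V × ℕ → ℝ) :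
    V × ℕ → ℝ :=
  fun i => limsup (fun n => (step M r U)^[n] U i) atTop

open Classical in
/-- decode the bits from the observations. -/
noncomputable def decode (ζ : V × ℕ → ℝ) (v : V) : Bool :=
  decide (∀ᶠ k : ℕ in atTop, (61 / 120 : ℝ) < (∑ j ∈ Finset.range k, ζ (v, j)) / k)

/-- the factor map. -/
noncomputable def Phi (M : V → (V → ℝ) → ℝ) (r : V → V → Prop) (U : V × ℕ → ℝ) : V → Bool :=
  decode (sol M r U)

/-- predictors with values in `[0,1]`, Lipschitz for the sup norm. -/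
structure GoodPred (M : V → (V → ℝ) → ℝ) : Prop where
  nonneg : ∀ v h, 0 ≤ M v h
  le_one : ∀ v h, M v h ≤ 1
  lip : ∀ v h h' (ρ : ℝ), (∀ w, |h w - h' w| ≤ ρ) → |M v h - M v h'| ≤ 30 * ρ

lemma clamp_nonneg (z : ℝ) : 0 ≤ clamp z := le_max_left _ _

lemma clamp_le_one (z : ℝ) : clamp z ≤ 1 := max_le zero_le_one (min_le_left _ _)

lemma clamp_of_mem {z : ℝ} (h0 : 0 ≤ z) (h1 : z ≤ 1) : clamp z = z := by
  unfold clamp; rw [min_eq_right h1, max_eq_right h0]

lemma abs_clamp_sub (a b : ℝ) : |clamp a - clamp b| ≤ |a - b| := by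
  unfold clamp
  refine (abs_max_sub_max_le_max _ _ _ _).trans ?_
  simp only [sub_self, abs_zero]
  refine max_le (abs_nonneg _) ?_
  refine (abs_min_sub_min_le_max _ _ _ _).trans ?_
  simp

lemma dens_ge (z : ℝ) : 9 / 10 ≤ dens z := by
  have := clamp_nonneg z; unfold dens; linarith

lemma dens_le (z : ℝ) : dens z ≤ 11 / 10 := by
  have := clamp_le_one z; unfold dens; linarith

lemma dens_pos (z : ℝ) : 0 < dens z := lt_of_lt_of_le (by norm_num) (dens_ge z)

lemma exp_eta (z : ℝ) : Real.exp (eta z) = dens z := Real.exp_log (dens_pos z)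

lemma abs_log_sub_le {a b : ℝ} (ha : 9 / 10 ≤ a) (hb : 9 / 10 ≤ b) :
    Real.log a - Real.log b ≤ 10 / 9 * |a - b| := by
  have ha0 : 0 < a := by linarith
  have hb0 : 0 < b := by linarith
  rw [← Real.log_div ha0.ne' hb0.ne']
  have h1 := Real.log_le_sub_one_of_pos (div_pos ha0 hb0)
  have h2 : a / b - 1 = (a - b) / b := by field_simp
  have h3 : (a - b) / b ≤ |a - b| / b := by gcongr; exact le_abs_self _
  have h4 : |a - b| / b ≤ |a - b| / (9 / 10) := by gcongr
  linarith [show |a - b| / (9 / 10) = 10 / 9 * |a - b| by ring]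

lemma abs_eta_sub (a b : ℝ) : |eta a - eta b| ≤ 2 / 9 * |a - b| := by
  have h : |dens a - dens b| ≤ 1 / 5 * |a - b| := by
    have : dens a - dens b = 1 / 5 * (clamp a - clamp b) := by unfold dens; ring
    rw [this, abs_mul, abs_of_pos (by norm_num : (0 : ℝ) < 1 / 5)]
    exact mul_le_mul_of_nonneg_left (abs_clamp_sub a b) (by norm_num)
  have h1 := abs_log_sub_le (dens_ge a) (dens_ge b)
  have h2 := abs_log_sub_le (dens_ge b) (dens_ge a)
  rw [abs_sub_comm (dens b)] at h2
  unfold eta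
  rw [abs_le]; constructor <;> linarith

lemma gg_nonneg (z : ℝ) : 0 ≤ gg z :=
  mul_nonneg (clamp_nonneg z) (sub_nonneg.2 (clamp_le_one z))

lemma gg_le (z : ℝ) : gg z ≤ 1 / 4 := by
  unfold gg; nlinarith [sq_nonneg (clamp z - 1 / 2)]

lemma abs_gg_sub (a b : ℝ) : |gg a - gg b| ≤ |a - b| := by
  have : gg a - gg b = (clamp a - clamp b) * (1 - clamp a - clamp b) := by unfold gg; ring
  rw [this, abs_mul]
  have h1 : |1 - clamp a - clamp b| ≤ 1 := by
    have := clamp_nonneg a; have := clamp_nonneg b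
    have := clamp_le_one a; have := clamp_le_one b
    rw [abs_le]; constructor <;> linarith
  calc _ ≤ |a - b| * 1 := mul_le_mul (abs_clamp_sub a b) h1 (abs_nonneg _) (abs_nonneg _)
    _ = _ := mul_one _

lemma sum_two_pow_le (k : ℕ) : ∑ j ∈ Finset.range k, (2 : ℝ) ^ j ≤ 2 ^ k := by
  induction k with
  | zero => simp
  | succ k ih => rw [Finset.sum_range_succ, pow_succ]; linarith

lemma abs_field_sub (r : V → V → Prop) (ζ ζ' : V × ℕ → ℝ) (c : ℝ) (hc : 0 ≤ c)
    (h : ∀ j, |ζ j - ζ' j| ≤ 2 ^ j.2 * c) (i : V × ℕ) (w : V) :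
    |field r ζ i w - field r ζ' i w| ≤ 4 / 9 * (2 ^ i.2 * c) := by
  classical
  unfold field
  have h1 : |∑ j ∈ Finset.range i.2, eta (ζ (w, j)) - ∑ j ∈ Finset.range i.2, eta (ζ' (w, j))|
      ≤ 2 / 9 * (2 ^ i.2 * c) := by
    rw [← Finset.sum_sub_distrib]
    refine (Finset.abs_sum_le_sum_abs _ _).trans ?_
    calc _ ≤ ∑ j ∈ Finset.range i.2, 2 / 9 * (2 ^ j * c) := by
          refine Finset.sum_le_sum fun j _ => (abs_eta_sub _ _).trans ?_
          gcongr; exact h (w, j)
      _ = 2 / 9 * ((∑ j ∈ Finset.range i.2, (2 : ℝ) ^ j) * c) := by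
          rw [← Finset.mul_sum, Finset.sum_mul]
      _ ≤ _ := by gcongr; exact sum_two_pow_le _
  have h2 : |(if r w i.1 then eta (ζ (w, i.2)) else 0) - if r w i.1 then eta (ζ' (w, i.2)) else 0|
      ≤ 2 / 9 * (2 ^ i.2 * c) := by
    split_ifs
    · refine (abs_eta_sub _ _).trans ?_
      gcongr; exact h (w, i.2)
    · simp only [sub_self, abs_zero]; positivity
  calc _ = |(∑ j ∈ Finset.range i.2, eta (ζ (w, j)) - ∑ j ∈ Finset.range i.2, eta (ζ' (w, j))) +
      ((if r w i.1 then eta (ζ (w, i.2)) else 0) - if r w i.1 then eta (ζ' (w, i.2)) else 0)| := by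
        congr 1; ring
    _ ≤ _ := (abs_add_le _ _).trans (by linarith)

lemma abs_step_sub {M : V → (V → ℝ) → ℝ} (hM : GoodPred M) (r : V → V → Prop)
    (U ζ ζ' : V × ℕ → ℝ) (c : ℝ) (hc : 0 ≤ c)
    (h : ∀ j, |ζ j - ζ' j| ≤ 2 ^ j.2 * c) (i : V × ℕ) :
    |step M r U ζ i - step M r U ζ' i| ≤ 2 ^ i.2 * (c / 2) := by
  unfold step
  have h1 := hM.lip i.1 _ _ _ (abs_field_sub r ζ ζ' c hc h i)
  have h2 := (abs_gg_sub (ζ i) (ζ' i)).trans (h i)
  set a := M i.1 (field r ζ i)
  set a' := M i.1 (field r ζ' i)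
  have ha0 : 0 ≤ a' := hM.nonneg _ _
  have ha1 : a' ≤ 1 := hM.le_one _ _
  have hg0 := gg_nonneg (ζ i)
  have hg1 := gg_le (ζ i)
  have e : U i + a * gg (ζ i) / 10 - (U i + a' * gg (ζ' i) / 10) =
      ((a - a') * gg (ζ i) + a' * (gg (ζ i) - gg (ζ' i))) / 10 := by ring
  rw [e, abs_div, abs_of_pos (by norm_num : (0 : ℝ) < 10)]
  have h3 : |(a - a') * gg (ζ i)| ≤ 30 * (4 / 9 * (2 ^ i.2 * c)) * (1 / 4) := by
    rw [abs_mul, abs_of_nonneg hg0]
    gcongr
  have h4 : |a' * (gg (ζ i) - gg (ζ' i))| ≤ 1 * (2 ^ i.2 * c) := by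
    rw [abs_mul, abs_of_nonneg ha0]
    gcongr
  have h5 := (abs_add_le _ _).trans (add_le_add h3 h4)
  have h6 : 0 ≤ 2 ^ i.2 * c := by positivity
  rw [div_le_iff₀ (by norm_num : (0 : ℝ) < 10)]
  nlinarith

lemma step_ros (M : V → (V → ℝ) → ℝ) (r : V → V → Prop) (ζ : V × ℕ → ℝ) :
    step M r (ros M r ζ) ζ = ζ := by
  funext i; unfold step ros; ring

lemma abs_iter_sub {M : V → (V → ℝ) → ℝ} (hM : GoodPred M) (r : V → V → Prop)
    (ζ : V × ℕ → ℝ) (n : ℕ) (i : V × ℕ) :
    |(step M r (ros M r ζ))^[n] (ros M r ζ) i - ζ i| ≤ 2 ^ i.2 * (1 / 2) ^ n := by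
  induction n generalizing i with
  | zero =>
    simp only [Function.iterate_zero, id_eq, pow_zero, mul_one]
    unfold ros
    have h0 := hM.nonneg i.1 (field r ζ i)
    have h1 := hM.le_one i.1 (field r ζ i)
    have h2 := gg_nonneg (ζ i)
    have h3 := gg_le (ζ i)
    have h4 : (1 : ℝ) ≤ 2 ^ i.2 := one_le_pow₀ (by norm_num)
    have h5 : M i.1 (field r ζ i) * gg (ζ i) ≤ 1 * (1 / 4) := by gcongr
    have h6 : 0 ≤ M i.1 (field r ζ i) * gg (ζ i) := mul_nonneg h0 h2
    rw [abs_le]; constructor <;> linarith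
  | succ n ih =>
    rw [Function.iterate_succ_apply']
    have := abs_step_sub hM r (ros M r ζ) _ ζ ((1 / 2) ^ n) (by positivity) ih i
    rw [step_ros] at this
    convert this using 2
    ring

lemma sol_ros {M : V → (V → ℝ) → ℝ} (hM : GoodPred M) (r : V → V → Prop)
    (ζ : V × ℕ → ℝ) : sol M r (ros M r ζ) = ζ := by
  funext i
  unfold sol
  apply Filter.Tendsto.limsup_eq
  rw [tendsto_iff_norm_sub_tendsto_zero]
  have h0 : Tendsto (fun n : ℕ => (2 : ℝ) ^ i.2 * (1 / 2) ^ n) atTop (𝓝 (2 ^ i.2 * 0)) :=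
    (tendsto_pow_atTop_nhds_zero_of_lt_one (by norm_num) (by norm_num)).const_mul _
  rw [mul_zero] at h0
  exact squeeze_zero (fun _ => norm_nonneg _) (fun n => abs_iter_sub hM r ζ n i) h0

/-! ### naturality -/

section Nat

variable {V₀ : Type*} (ι : V₀ → V) {M : V → (V → ℝ) → ℝ} {M₀ : V₀ → (V₀ → ℝ) → ℝ}
  {r : V → V → Prop} {r₀ : V₀ → V₀ → Prop}

/-- pull back of an array along a map of sites -/
def pull (ι : V₀ → V) (ζ : V × ℕ → ℝ) : V₀ × ℕ → ℝ := fun i => ζ (ι i.1, i.2)

lemma field_pull (hr : ∀ w v, r₀ w v ↔ r (ι w) (ι v)) (ζ : V × ℕ → ℝ) (i : V₀ × ℕ) :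
    field r₀ (pull ι ζ) i = field r ζ (ι i.1, i.2) ∘ ι := by
  funext w
  by_cases h : r (ι w) (ι i.1)
  · have h' := (hr _ _).2 h
    simp [field, pull, Function.comp, h, h']
  · have h' : ¬ r₀ w i.1 := fun h'' => h ((hr _ _).1 h'')
    simp [field, pull, Function.comp, h, h']

lemma step_pull (hM : ∀ v h, M₀ v (h ∘ ι) = M (ι v) h) (hr : ∀ w v, r₀ w v ↔ r (ι w) (ι v))
    (U ζ : V × ℕ → ℝ) : step M₀ r₀ (pull ι U) (pull ι ζ) = pull ι (step M r U ζ) := by
  funext i
  simp only [step, field_pull ι hr, hM]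
  rfl

lemma iter_pull (hM : ∀ v h, M₀ v (h ∘ ι) = M (ι v) h) (hr : ∀ w v, r₀ w v ↔ r (ι w) (ι v))
    (U : V × ℕ → ℝ) (n : ℕ) :
    (step M₀ r₀ (pull ι U))^[n] (pull ι U) = pull ι ((step M r U)^[n] U) := by
  induction n with
  | zero => rfl
  | succ n ih => rw [Function.iterate_succ_apply', Function.iterate_succ_apply', ih,
      step_pull ι hM hr]

lemma Phi_pull (hM : ∀ v h, M₀ v (h ∘ ι) = M (ι v) h) (hr : ∀ w v, r₀ w v ↔ r (ι w) (ι v))
    (U : V × ℕ → ℝ) : Phi M₀ r₀ (pull ι U) = Phi M r U ∘ ι := by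
  have : sol M₀ r₀ (pull ι U) = pull ι (sol M r U) := by
    funext i
    simp only [sol, iter_pull ι hM hr]
    rfl
  funext v
  simp only [Phi, this, Function.comp]
  rfl

end Nat

/-! ### measurability -/

section Meas

open MeasureTheory

lemma continuous_clamp : Continuous clamp := by unfold clamp; fun_prop

@[fun_prop] lemma measurable_clamp : Measurable clamp := continuous_clamp.measurable

@[fun_prop] lemma measurable_dens : Measurable dens := by unfold dens; fun_prop

@[fun_prop] lemma measurable_eta : Measurable eta := by unfold eta; fun_prop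

@[fun_prop] lemma measurable_gg : Measurable gg := by unfold gg; fun_prop

variable {Ω : Type*} [MeasurableSpace Ω]

lemma measurable_field {r : Ω → V → V → Prop} (hr : ∀ w v, MeasurableSet {p | r p w v})
    {ζ : Ω → V × ℕ → ℝ} (hζ : Measurable ζ) (i : V × ℕ) :
    Measurable fun p => field (r p) (ζ p) i := by
  classical
  refine measurable_pi_lambda _ fun w => ?_
  unfold field
  refine Measurable.add (Finset.measurable_sum _ fun j _ => ?_) ?_
  · exact measurable_eta.comp ((measurable_pi_apply _).comp hζ)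
  · refine Measurable.ite (hr w i.1) ?_ measurable_const
    exact measurable_eta.comp ((measurable_pi_apply _).comp hζ)

lemma measurable_step {M : Ω → V → (V → ℝ) → ℝ}
    (hM : ∀ v, Measurable fun q : Ω × (V → ℝ) => M q.1 v q.2)
    {r : Ω → V → V → Prop} (hr : ∀ w v, MeasurableSet {p | r p w v})
    {U ζ : Ω → V × ℕ → ℝ} (hU : Measurable U) (hζ : Measurable ζ) :
    Measurable fun p => step (M p) (r p) (U p) (ζ p) := by
  refine measurable_pi_lambda _ fun i => ?_
  unfold step
  refine Measurable.add ((measurable_pi_apply _).comp hU) (Measurable.div_const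
    (Measurable.mul ?_ (measurable_gg.comp ((measurable_pi_apply _).comp hζ))) _)
  exact (hM i.1).comp (measurable_id.prodMk (measurable_field hr hζ i))

lemma measurable_ros {M : Ω → V → (V → ℝ) → ℝ}
    (hM : ∀ v, Measurable fun q : Ω × (V → ℝ) => M q.1 v q.2)
    {r : Ω → V → V → Prop} (hr : ∀ w v, MeasurableSet {p | r p w v})
    {ζ : Ω → V × ℕ → ℝ} (hζ : Measurable ζ) :
    Measurable fun p => ros (M p) (r p) (ζ p) := by
  refine measurable_pi_lambda _ fun i => ?_
  unfold ros
  refine Measurable.sub ((measurable_pi_apply _).comp hζ) (Measurable.div_const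
    (Measurable.mul ?_ (measurable_gg.comp ((measurable_pi_apply _).comp hζ))) _)
  exact (hM i.1).comp (measurable_id.prodMk (measurable_field hr hζ i))

lemma measurable_sol {M : Ω → V → (V → ℝ) → ℝ}
    (hM : ∀ v, Measurable fun q : Ω × (V → ℝ) => M q.1 v q.2)
    {r : Ω → V → V → Prop} (hr : ∀ w v, MeasurableSet {p | r p w v})
    {U : Ω → V × ℕ → ℝ} (hU : Measurable U) :
    Measurable fun p => sol (M p) (r p) (U p) := by
  have h : ∀ n, Measurable fun p => (step (M p) (r p) (U p))^[n] (U p) := by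
    intro n
    induction n with
    | zero => exact hU
    | succ n ih =>
      simp only [Function.iterate_succ_apply']
      exact measurable_step hM hr hU ih
  refine measurable_pi_lambda _ fun i => ?_
  unfold sol
  exact Measurable.limsup fun n => (measurable_pi_apply i).comp (h n)

lemma measurable_decode : Measurable (decode : (V × ℕ → ℝ) → V → Bool) := by
  classical
  refine measurable_pi_lambda _ fun v => ?_
  apply measurable_to_bool
  have : (fun ζ : V × ℕ → ℝ => decode ζ v) ⁻¹' {true} =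
      ⋃ N : ℕ, ⋂ k : ℕ, {ζ | N ≤ k → (61 / 120 : ℝ) < (∑ j ∈ Finset.range k, ζ (v, j)) / k} := by
    ext ζ
    simp [decode, Filter.eventually_atTop]
  rw [this]
  refine MeasurableSet.iUnion fun N => MeasurableSet.iInter fun k => ?_
  by_cases hk : N ≤ k
  · simp only [hk, true_imp_iff]
    exact measurableSet_lt measurable_const (by fun_prop)
  · simp [hk]

lemma measurable_Phi {M : Ω → V → (V → ℝ) → ℝ}
    (hM : ∀ v, Measurable fun q : Ω × (V → ℝ) => M q.1 v q.2)
    {r : Ω → V → V → Prop} (hr : ∀ w v, MeasurableSet {p | r p w v})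
    {U : Ω → V × ℕ → ℝ} (hU : Measurable U) :
    Measurable fun p => Phi (M p) (r p) (U p) :=
  measurable_decode.comp (measurable_sol hM hr hU)

end Meas

end Crest.Agent.R168
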