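import Crest.Agent.R168.Defs

set_option autoImplicit false

namespace Crest.Agent.R168

open Filter Topology

lemma limsup_le_add {a b : ℕ → ℝ} (ha0 : ∀ n, 0 ≤ a n) (hb1 : ∀ n, b n ≤ 1) (hb0 : ∀ n, 0 ≤ b n)
    (c : ℝ) (h : ∀ n, a n ≤ b n + c) : limsup a atTop ≤ limsup b atTop + c := by
  have hb : IsBoundedUnder (· ≤ ·) atTop b := isBoundedUnder_of ⟨1, hb1⟩
  have hb' : IsCoboundedUnder (· ≤ ·) atTop b :=
    isCoboundedUnder_le_of_le atTop hb0
  rw [← limsup_add_const atTop b c hb hb']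
  exact limsup_le_limsup (Eventually.of_forall h) (isCoboundedUnder_le_of_le atTop ha0)
    (isBoundedUnder_of ⟨1 + c, fun n => by linarith [hb1 n]⟩)

lemma goodPred_limsup {V : Type*} (m : ℕ → V → (V → ℝ) → ℝ) (h0 : ∀ n v h, 0 ≤ m n v h)
    (h1 : ∀ n v h, m n v h ≤ 1)
    (hl : ∀ n v h h' (ρ : ℝ), (∀ w, |h w - h' w| ≤ ρ) → |m n v h - m n v h'| ≤ 30 * ρ) :
    GoodPred fun v h => limsup (fun n => m n v h) atTop where
  nonneg v h := le_limsup_of_frequently_le (Frequently.of_forall fun n => h0 n v h)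
    (isBoundedUnder_of ⟨1, fun n => h1 n v h⟩)
  le_one v h := limsup_le_of_le (isCoboundedUnder_le_of_le atTop fun n => h0 n v h)
    (Eventually.of_forall fun n => h1 n v h)
  lip v h h' ρ hh := by
    have a1 := limsup_le_add (fun n => h0 n v h) (fun n => h1 n v h') (fun n => h0 n v h') (30 * ρ)
      fun n => by linarith [(abs_le.1 (hl n v h h' ρ hh)).2]
    have a2 := limsup_le_add (fun n => h0 n v h') (fun n => h1 n v h) (fun n => h0 n v h) (30 * ρ)
      fun n => by linarith [(abs_le.1 (hl n v h h' ρ hh)).1]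
    rw [abs_le]; constructor <;> linarith

end Crest.Agent.R168
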