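import Crest.Agent.R168.MatrixTree
import Crest.Agent.R168.Labels
import Crest.Agent.R168.Limsup

set_option autoImplicit false

/-!
The canonical predictor, order and edge labels for the free uniform spanning forest:
definitions, Lipschitz bound, naturality under relabelling, and measurability in the graph.
-/

namespace Crest.Agent.R168

open Filter Topology MeasureTheory Set
open Crest.ProbabilityR.SpanningTrees

/-- `w` is within graph distance `n` of `a` -/
def inBall (G : SimpleGraph ℕ) (a : ℕ) : ℕ → ℕ → Prop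
  | 0, w => w = a
  | n + 1, w => inBall G a n w ∨ ∃ u, inBall G a n u ∧ G.Adj u w

/-- both endpoints of `g` are within distance `n` of an endpoint of `e` -/
def near (G : SimpleGraph ℕ) (n : ℕ) (e g : Sym2 ℕ) : Prop :=
  ∀ w, w ∈ g → ∃ a, a ∈ e ∧ inBall G a n w

open Classical in
/-- the field cut off outside the ball -/
noncomputable def cut (G : SimpleGraph ℕ) (n : ℕ) (e : Sym2 ℕ) (h : Sym2 ℕ → ℝ) : Sym2 ℕ → ℝ :=
  fun g => if near G n e g then h g else 0

open Classical in
/-- value attached to one finite piece -/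
noncomputable def pieceVal (G : SimpleGraph ℕ) (e : Sym2 ℕ) (h : Sym2 ℕ → ℝ) (S : Finset ℕ) : ℝ :=
  if (G.induce (S : Set ℕ)).Connected ∧ e ∈ edgesIn G S then
    ustP G S (fun g => Real.exp (h g)) e else 1

/-- free limit of the weighted spanning tree marginal -/
noncomputable def freeVal (G : SimpleGraph ℕ) (e : Sym2 ℕ) (h : Sym2 ℕ → ℝ) : ℝ :=
  ⨅ S : Finset ℕ, pieceVal G e h S

/-- the predictor -/
noncomputable def predG (G : SimpleGraph ℕ) (e : Sym2 ℕ) (h : Sym2 ℕ → ℝ) : ℝ :=
  limsup (fun n => freeVal G e (cut G n e h)) atTop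

/-- ordering key of a pair -/
noncomputable def key (o : ℕ → ℝ) (e : Sym2 ℕ) : ℝ ×ₗ ℝ :=
  toLex ((Sym2.map o e).sup, (Sym2.map o e).inf)

/-- rank of `b` among the neighbours of `a` -/
noncomputable def rank (G : SimpleGraph ℕ) (o : ℕ → ℝ) (a b : ℕ) : ℕ :=
  {c | G.Adj a c ∧ o c < o b}.ncard

/-- a symmetric choice rule -/
noncomputable def pick {β : Type*} (o : ℕ → ℝ) (f : ℕ → ℕ → β) (d : β) : Sym2 ℕ → β :=
  Sym2.lift ⟨fun a b => if o a < o b then f a b else if o b < o a then f b a else d, by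
    intro a b
    rcases lt_trichotomy (o a) (o b) with h | h | h
    · simp [h, h.not_gt]
    · simp [h]
    · simp [h, h.not_gt]⟩

lemma pick_mk {β : Type*} (o : ℕ → ℝ) (f : ℕ → ℕ → β) (d : β) (a b : ℕ) :
    pick o f d s(a, b) = if o a < o b then f a b else if o b < o a then f b a else d := rfl

/-- labels on pairs read off from labels on vertices -/
noncomputable def edgeU (G : SimpleGraph ℕ) (o : ℕ → ℝ) (U : ℕ × ℕ → ℝ) : Sym2 ℕ × ℕ → ℝ :=
  fun i => pick o (fun a b => U (a, Nat.pair (rank G o a b) i.2)) 0 i.1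

/-- the rule -/
noncomputable def PhiG (G : SimpleGraph ℕ) (o : ℕ → ℝ) (U : ℕ × ℕ → ℝ) : Sym2 ℕ → Bool :=
  Phi (predG G) (fun w v => key o w < key o v) (edgeU G o U)

/-! ### Lipschitz bound -/

lemma pieceVal_nonneg (G : SimpleGraph ℕ) (e : Sym2 ℕ) (h : Sym2 ℕ → ℝ) (S : Finset ℕ) :
    0 ≤ pieceVal G e h S := by
  unfold pieceVal; split_ifs
  · exact ustP_nonneg G S (fun _ => Real.exp_pos _) e
  · exact zero_le_one

lemma pieceVal_le_one (G : SimpleGraph ℕ) (e : Sym2 ℕ) (h : Sym2 ℕ → ℝ) (S : Finset ℕ) :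
    pieceVal G e h S ≤ 1 := by
  unfold pieceVal; split_ifs
  · exact ustP_le_one G S (fun _ => Real.exp_pos _) e
  · exact le_rfl

lemma bddBelow_pieceVal (G : SimpleGraph ℕ) (e : Sym2 ℕ) (h : Sym2 ℕ → ℝ) :
    BddBelow (range (pieceVal G e h)) := ⟨0, by rintro _ ⟨S, rfl⟩; exact pieceVal_nonneg G e h S⟩

lemma freeVal_le (G : SimpleGraph ℕ) (e : Sym2 ℕ) (h : Sym2 ℕ → ℝ) (S : Finset ℕ) :
    freeVal G e h ≤ pieceVal G e h S := ciInf_le (bddBelow_pieceVal G e h) S

lemma freeVal_lip (G : SimpleGraph ℕ) (e : Sym2 ℕ) (h h' : Sym2 ℕ → ℝ) (ρ : ℝ)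
    (hh : ∀ g, |h g - h' g| ≤ ρ) : freeVal G e h ≤ freeVal G e h' + 2 * ρ := by
  have hρ : 0 ≤ ρ := (abs_nonneg _).trans (hh e)
  rw [← sub_le_iff_le_add]
  refine le_ciInf fun S => ?_
  rw [sub_le_iff_le_add]
  refine (freeVal_le G e h S).trans ?_
  unfold pieceVal
  split_ifs with hS
  · exact ustP_lip hS.1 h h' ρ hh hS.2
  · linarith

lemma goodPred_predG (G : SimpleGraph ℕ) : GoodPred (predG G) := by
  refine goodPred_limsup (fun n e h => freeVal G e (cut G n e h))
    (fun n e h => le_ciInf fun S => pieceVal_nonneg _ _ _ S)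
    (fun n e h => (freeVal_le _ _ _ ∅).trans (pieceVal_le_one _ _ _ _)) fun n e h h' ρ hh => ?_
  have hρ : 0 ≤ ρ := (abs_nonneg _).trans (hh e)
  have h1 : ∀ g, |cut G n e h g - cut G n e h' g| ≤ ρ := fun g => by
    unfold cut; split_ifs
    · exact hh g
    · simpa using hρ
  have h2 := freeVal_lip G e _ _ ρ h1
  have h3 := freeVal_lip G e _ _ ρ (fun g => by rw [abs_sub_comm]; exact h1 g)
  rw [abs_le]; constructor <;> linarith

/-! ### naturality -/

section Nat

variable (σ : Equiv.Perm ℕ) (G : SimpleGraph ℕ)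

lemma inBall_comap (a n w : ℕ) : inBall (G.comap σ) a n w ↔ inBall G (σ a) n (σ w) := by
  induction n generalizing w with
  | zero => simp [inBall]
  | succ n ih =>
    simp only [inBall, ih, SimpleGraph.comap_adj]
    refine or_congr Iff.rfl ⟨fun ⟨u, hu⟩ => ⟨σ u, hu⟩, fun ⟨u, hu⟩ => ⟨σ.symm u, by simpa using hu⟩⟩

lemma near_comap (n : ℕ) (e g : Sym2 ℕ) :
    near (G.comap σ) n e g ↔ near G n (Sym2.map σ e) (Sym2.map σ g) := by
  simp only [near, inBall_comap, Sym2.mem_map]
  constructor
  · rintro h _ ⟨w, hw, rfl⟩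
    obtain ⟨a, ha, h⟩ := h w hw
    exact ⟨σ a, ⟨a, ha, rfl⟩, h⟩
  · intro h w hw
    obtain ⟨_, ⟨a, ha, rfl⟩, h⟩ := h (σ w) ⟨w, hw, rfl⟩
    exact ⟨a, ha, h⟩

lemma cut_comap (n : ℕ) (e : Sym2 ℕ) (h : Sym2 ℕ → ℝ) :
    cut (G.comap σ) n e (h ∘ Sym2.map σ) = cut G n (Sym2.map σ e) h ∘ Sym2.map σ := by
  funext g
  simp only [cut, Function.comp]
  by_cases hn : near (G.comap σ) n e g
  · rw [if_pos hn, if_pos ((near_comap σ G n e g).1 hn)]
  · rw [if_neg hn, if_neg (fun h => hn ((near_comap σ G n e g).2 h))]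

/-- the action on pairs -/
def pairEquiv : Sym2 ℕ ≃ Sym2 ℕ where
  toFun := Sym2.map σ
  invFun := Sym2.map σ.symm
  left_inv g := by rw [Sym2.map_map]; simp
  right_inv g := by rw [Sym2.map_map]; simp

lemma mem_edgesIn_comap (S : Finset ℕ) (g : Sym2 ℕ) :
    g ∈ edgesIn (G.comap σ) S ↔ Sym2.map σ g ∈ edgesIn G (S.map σ.toEmbedding) := by
  induction g with | _ u v
  simp [mem_edgesIn]

/-- relabelling of induced pieces -/
def induceIso (H : SimpleGraph ℕ) (S : Finset ℕ) :
    (H.comap σ).induce (S : Set ℕ) ≃g H.induce (S.map σ.toEmbedding : Finset ℕ) where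
  toEquiv := σ.subtypeEquiv (by simp)
  map_rel_iff' := Iff.rfl

lemma tree_comap (S : Finset ℕ) (A : Finset (Sym2 ℕ)) :
    IsSpanningTreeOn (G.comap σ) S A ↔
      IsSpanningTreeOn G (S.map σ.toEmbedding) (A.map (pairEquiv σ).toEmbedding) := by
  unfold IsSpanningTreeOn
  refine and_congr ?_ ?_
  · simp only [Finset.subset_iff, mem_edgesIn_comap, Finset.mem_map]
    constructor
    · rintro h _ ⟨g, hg, rfl⟩; exact h hg
    · intro h g hg; exact h ⟨g, hg, rfl⟩
  · rw [← (induceIso σ _ S).isTree_iff]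
    congr! 2
    ext u v
    simp only [SimpleGraph.fromEdgeSet_adj, Finset.mem_coe, SimpleGraph.comap_adj, ne_eq,
      EmbeddingLike.apply_eq_iff_eq]
    refine and_congr ?_ Iff.rfl
    exact (Finset.mem_map' (pairEquiv σ).toEmbedding (a := s(u, v))).symm

lemma mem_trees {G : SimpleGraph ℕ} {S : Finset ℕ} {A : Finset (Sym2 ℕ)} :
    A ∈ trees G S ↔ IsSpanningTreeOn G S A := by
  simp only [trees, Finset.mem_filter, Finset.mem_powerset]
  exact ⟨fun h => h.2, fun h => ⟨h.1, h⟩⟩

lemma ustP_comap (S : Finset ℕ) (c : Sym2 ℕ → ℝ) (e : Sym2 ℕ) :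
    ustP (G.comap σ) S (c ∘ Sym2.map σ) e = ustP G (S.map σ.toEmbedding) c (Sym2.map σ e) := by
  unfold ustP
  congr 1
  · refine Finset.sum_equiv (pairEquiv σ).finsetCongr (fun A => ?_) fun A _ => ?_
    · simp only [mem_trees, tree_comap, Equiv.finsetCongr_apply]
    · simp only [Equiv.finsetCongr_apply, Finset.prod_map]
      have : Sym2.map σ e ∈ A.map (pairEquiv σ).toEmbedding ↔ e ∈ A :=
        Finset.mem_map' (pairEquiv σ).toEmbedding (a := e) (s := A)
      by_cases h : e ∈ A
      · rw [if_pos h, if_pos (this.2 h)]; rfl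
      · rw [if_neg h, if_neg (fun h' => h (this.1 h'))]
  · refine Finset.sum_equiv (pairEquiv σ).finsetCongr (fun A => ?_) fun A _ => ?_
    · simp only [mem_trees, tree_comap, Equiv.finsetCongr_apply]
    · simp only [Equiv.finsetCongr_apply, Finset.prod_map]
      rfl

lemma freeVal_comap (e : Sym2 ℕ) (h : Sym2 ℕ → ℝ) :
    freeVal (G.comap σ) e (h ∘ Sym2.map σ) = freeVal G (Sym2.map σ e) h := by
  unfold freeVal
  refine Equiv.iInf_congr σ.finsetCongr fun S => ?_
  simp only [Equiv.finsetCongr_apply, pieceVal]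
  have h1 := (induceIso σ G S).connected_iff
  have h2 := mem_edgesIn_comap σ G S e
  by_cases hS : ((G.comap σ).induce (S : Set ℕ)).Connected ∧ e ∈ edgesIn (G.comap σ) S
  · rw [if_pos hS, if_pos ⟨h1.1 hS.1, h2.1 hS.2⟩, ← ustP_comap]; rfl
  · rw [if_neg hS, if_neg (fun h => hS ⟨h1.2 h.1, h2.2 h.2⟩)]

lemma predG_comap (e : Sym2 ℕ) (h : Sym2 ℕ → ℝ) :
    predG (G.comap σ) e (h ∘ Sym2.map σ) = predG G (Sym2.map σ e) h := by
  simp only [predG, cut_comap, freeVal_comap]

lemma rank_comap (o : ℕ → ℝ) (a b : ℕ) :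
    rank (G.comap σ) (o ∘ σ) a b = rank G o (σ a) (σ b) := by
  unfold rank
  rw [← Set.ncard_image_of_injective _ σ.injective]
  congr 1
  ext c
  constructor
  · rintro ⟨d, hd, rfl⟩; exact hd
  · intro hc; exact ⟨σ.symm c, by simpa using hc, by simp⟩

lemma PhiG_comap (o : ℕ → ℝ) (U : ℕ × ℕ → ℝ) :
    PhiG (G.comap σ) (o ∘ σ) (pull σ U) = PhiG G o U ∘ Sym2.map σ := by
  unfold PhiG
  have : edgeU (G.comap σ) (o ∘ σ) (pull σ U) = pull (Sym2.map σ) (edgeU G o U) := by
    funext ⟨e, k⟩
    induction e with | _ a b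
    simp only [edgeU, pull, pick_mk, Sym2.map_mk, rank_comap, Function.comp]
  rw [this]
  refine Phi_pull (Sym2.map σ) (predG_comap σ G) (fun w v => ?_) _
  simp only [key, Sym2.map_map]

end Nat

/-! ### measurability -/

section Meas

variable {Ω : Type*} [MeasurableSpace Ω] {G : Ω → SimpleGraph ℕ}
  (hG : ∀ a b, Measurable fun p => (G p).Adj a b)

include hG

lemma measurable_inBall (a n w : ℕ) : Measurable fun p => inBall (G p) a n w := by
  induction n generalizing w with
  | zero => exact measurable_const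
  | succ n ih => exact (ih w).or (Measurable.exists fun u => (ih u).and (hG u w))

lemma measurable_near (n : ℕ) (e g : Sym2 ℕ) : Measurable fun p => near (G p) n e g :=
  Measurable.forall fun w => measurable_const.imp
    (Measurable.exists fun a => measurable_const.and (measurable_inBall hG a n w))

lemma measurable_mem_edgesIn (S : Finset ℕ) (g : Sym2 ℕ) :
    Measurable fun p => g ∈ edgesIn (G p) S := by
  induction g with | _ u v
  simp only [mem_edgesIn]
  exact measurable_const.and (measurable_const.and (hG u v))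

lemma measurable_tree (S : Finset ℕ) (A : Finset (Sym2 ℕ)) :
    Measurable fun p => IsSpanningTreeOn (G p) S A := by
  refine Measurable.and ?_ measurable_const
  exact Measurable.forall fun g => measurable_const.imp (measurable_mem_edgesIn hG S g)

omit hG in
lemma sum_trees (G : SimpleGraph ℕ) (S : Finset ℕ) (f : Finset (Sym2 ℕ) → ℝ) :
    ∑ A ∈ trees G S, f A = ∑ A ∈ S.sym2.powerset, {A | IsSpanningTreeOn G S A}.indicator f A := by
  classical
  simp only [indicator_apply, mem_ofPred_eq]
  rw [← Finset.sum_filter]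
  refine Finset.sum_congr ?_ fun _ _ => rfl
  ext A
  simp only [mem_trees, Finset.mem_filter, Finset.mem_powerset]
  exact ⟨fun h => ⟨h.1.trans (Finset.filter_subset _ _), h⟩, fun h => h.2⟩

lemma measurable_sum_trees (S : Finset ℕ) {f : Ω → Finset (Sym2 ℕ) → ℝ}
    (hf : ∀ A, Measurable fun p => f p A) : Measurable fun p => ∑ A ∈ trees (G p) S, f p A := by
  classical
  simp only [sum_trees, indicator_apply, mem_ofPred_eq]
  exact Finset.measurable_sum _ fun A _ =>
    Measurable.ite (measurable_tree hG S A).setOf (hf A) measurable_const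

omit hG in
lemma connected_iff_trees (G : SimpleGraph ℕ) (S : Finset ℕ) :
    (G.induce (S : Set ℕ)).Connected ↔ ∃ A, IsSpanningTreeOn G S A := by
  constructor
  · intro h
    have := treeSum_pos h (c := fun _ => 1) fun _ => one_pos
    obtain ⟨A, hA⟩ := Finset.nonempty_of_sum_ne_zero this.ne'
    exact ⟨A, mem_trees.1 hA⟩
  · rintro ⟨A, hA, hT⟩
    refine hT.connected.mono fun u v huv => ?_
    exact (mem_edgesIn.1 (hA ((SimpleGraph.fromEdgeSet_adj _).1 huv).1)).2.2

lemma measurable_freeVal (e : Sym2 ℕ) {h : Ω → Sym2 ℕ → ℝ} (hh : Measurable h) :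
    Measurable fun p => freeVal (G p) e (h p) := by
  classical
  refine Measurable.iInf fun S => ?_
  unfold pieceVal
  refine Measurable.ite (Measurable.setOf (Measurable.and ?_ (measurable_mem_edgesIn hG S e)))
    ?_ measurable_const
  · simp only [connected_iff_trees]
    exact Measurable.exists fun A => measurable_tree hG S A
  · unfold ustP
    refine Measurable.div (measurable_sum_trees hG S fun A => ?_)
      (measurable_sum_trees hG S fun A => by fun_prop)
    split_ifs <;> fun_prop

lemma measurable_predG (e : Sym2 ℕ) {h : Ω → Sym2 ℕ → ℝ} (hh : Measurable h) :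
    Measurable fun p => predG (G p) e (h p) := by
  classical
  refine Measurable.limsup fun n => measurable_freeVal hG e (measurable_pi_lambda _ fun g => ?_)
  exact Measurable.ite (measurable_near hG n e g).setOf (by fun_prop) measurable_const

omit hG in
lemma measurableSet_key {o : Ω → ℕ → ℝ} (ho : Measurable o) (w v : Sym2 ℕ) :
    MeasurableSet {p | key (o p) w < key (o p) v} := by
  induction w with | _ a b
  induction v with | _ c d
  simp only [key, Prod.Lex.lt_iff, Sym2.map_mk, Sym2.sup_mk, Sym2.inf_mk, ofLex_toLex]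
  have h : ∀ a, Measurable fun p => o p a := fun a => (measurable_pi_apply a).comp ho
  exact measurableSet_setOfPred.2 (Measurable.or
    (measurableSet_setOfPred.1 (measurableSet_lt ((h a).max (h b)) ((h c).max (h d))))
    (Measurable.and
      (measurableSet_setOfPred.1 (measurableSet_eq_fun ((h a).max (h b)) ((h c).max (h d))))
      (measurableSet_setOfPred.1 (measurableSet_lt ((h a).min (h b)) ((h c).min (h d))))))

lemma measurable_rank {o : Ω → ℕ → ℝ} (ho : Measurable o) (a b : ℕ) :
    Measurable fun p => rank (G p) (o p) a b := by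
  refine measurable_ncard.comp (measurable_set_iff.2 fun c => (hG a c).and ?_)
  exact measurableSet_setOfPred.1 (measurableSet_lt (by fun_prop) (by fun_prop))

lemma measurable_edgeU {o : Ω → ℕ → ℝ} (ho : Measurable o) {U : Ω → ℕ × ℕ → ℝ}
    (hU : Measurable U) : Measurable fun p => edgeU (G p) (o p) (U p) := by
  refine measurable_pi_lambda _ fun ⟨e, k⟩ => ?_
  induction e with | _ a b
  have key : ∀ a b, Measurable fun p => U p (a, Nat.pair (rank (G p) (o p) a b) k) := by
    intro a b
    have : Measurable fun q : Ω × ℕ => U q.1 (a, Nat.pair q.2 k) :=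
      measurable_from_prod_countable_left fun j => (measurable_pi_apply (a, Nat.pair j k)).comp hU
    exact this.comp (measurable_id.prodMk (measurable_rank hG ho a b))
  simp only [edgeU, pick_mk]
  exact Measurable.ite (measurableSet_lt (by fun_prop) (by fun_prop)) (key a b)
    (Measurable.ite (measurableSet_lt (by fun_prop) (by fun_prop)) (key b a) measurable_const)

lemma measurable_PhiG {o : Ω → ℕ → ℝ} (ho : Measurable o) {U : Ω → ℕ × ℕ → ℝ}
    (hU : Measurable U) : Measurable fun p => PhiG (G p) (o p) (U p) :=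
  measurable_Phi (M := fun p => predG (G p)) (r := fun p w v => key (o p) w < key (o p) v)
    (U := fun p => edgeU (G p) (o p) (U p))
    (fun e => measurable_predG (G := fun q : Ω × (Sym2 ℕ → ℝ) => G q.1)
      (fun a b => (hG a b).comp measurable_fst) e measurable_snd)
    (measurableSet_key ho) (measurable_edgeU hG ho hU)

end Meas

end Crest.Agent.R168
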