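import Crest.Agent.R168.Fusf

set_option autoImplicit false

/-!
Identification of the law of the rule `PhiG` with any weak cluster point of the uniform spanning
tree laws along an exhaustion.
-/

namespace Crest.Agent.R168

open Filter Topology MeasureTheory Set
open Crest.ProbabilityR.SpanningTrees

variable (G : SimpleGraph ℕ)

open Classical in
/-- extension by zero of a field on the edges -/
noncomputable def extE (h : G.edgeSet → ℝ) : Sym2 ℕ → ℝ :=
  fun g => if hg : g ∈ G.edgeSet then h ⟨g, hg⟩ else 0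

/-- the predictor on the edges -/
noncomputable def predE (v : G.edgeSet) (h : G.edgeSet → ℝ) : ℝ := predG G v (extE G h)

lemma measurable_extE : Measurable (extE G) := by
  refine measurable_pi_lambda _ fun g => ?_
  unfold extE
  split_ifs <;> fun_prop

lemma measurable_predE (v : G.edgeSet) : Measurable (predE G v) :=
  measurable_predG (G := fun _ => G) (fun _ _ => measurable_const) v (measurable_extE G)

lemma goodPred_predE : GoodPred (predE G) where
  nonneg _ _ := (goodPred_predG G).nonneg _ _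
  le_one _ _ := (goodPred_predG G).le_one _ _
  lip v h h' ρ hh := (goodPred_predG G).lip _ _ _ ρ fun g => by
    unfold extE
    split_ifs
    · exact hh _
    · simpa using (abs_nonneg _).trans (hh v)

lemma edgesIn_subset (S : Finset ℕ) {g : Sym2 ℕ} (hg : g ∈ edgesIn G S) : g ∈ G.edgeSet := by
  induction g with | _ u v
  exact (mem_edgesIn.1 hg).2.2

lemma ustP_congr (S : Finset ℕ) (e : Sym2 ℕ) {c c' : Sym2 ℕ → ℝ}
    (h : ∀ g ∈ G.edgeSet, c g = c' g) : ustP G S c e = ustP G S c' e := by
  have : ∀ A ∈ trees G S, ∏ g ∈ A, c g = ∏ g ∈ A, c' g := fun A hA =>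
    Finset.prod_congr rfl fun g hg => h g (edgesIn_subset G S ((mem_trees.1 hA).1 hg))
  unfold ustP
  rw [Finset.sum_congr rfl this, Finset.sum_congr rfl fun A hA => by rw [this A hA]]

lemma predE_comp (v : G.edgeSet) (h : Sym2 ℕ → ℝ) :
    predE G v (h ∘ Subtype.val) = predG G v h := by
  unfold predE predG freeVal pieceVal
  congr with n
  congr with S
  rw [ustP_congr G S v (c' := fun g => Real.exp (cut G n v h g))]
  intro g hg
  simp [cut, extE, hg]

/-- index of the vertex label used by an edge -/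
noncomputable def idx (o : ℕ → ℝ) (i : G.edgeSet × ℕ) : ℕ × ℕ :=
  pick o (fun a b => (a, Nat.pair (rank G o a b) i.2)) (0, 0) i.1

lemma exists_orient {o : ℕ → ℝ} (ho : Function.Injective o) (e : G.edgeSet) :
    ∃ a b, (e : Sym2 ℕ) = s(a, b) ∧ G.Adj a b ∧ o a < o b := by
  obtain ⟨e, he⟩ := e
  induction e with | _ a b
  have hab : G.Adj a b := he
  rcases lt_or_gt_of_ne (fun h => hab.ne (ho h)) with h | h
  · exact ⟨a, b, rfl, hab, h⟩
  · exact ⟨b, a, Sym2.eq_swap, hab.symm, h⟩

lemma rank_lt (hloc : ∀ v, (G.neighborSet v).Finite) (o : ℕ → ℝ) {a b b' : ℕ} (hb : G.Adj a b)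
    (h : o b < o b') : rank G o a b < rank G o a b' := by
  refine Set.ncard_lt_ncard ⟨fun c hc => ⟨hc.1, hc.2.trans h⟩, fun hs => ?_⟩
    ((hloc a).subset fun c hc => hc.1)
  exact lt_irrefl _ (hs (show b ∈ {c | G.Adj a c ∧ o c < o b'} from ⟨hb, h⟩)).2

lemma idx_injective (hloc : ∀ v, (G.neighborSet v).Finite) {o : ℕ → ℝ}
    (ho : Function.Injective o) : Function.Injective (idx G o) := by
  rintro ⟨e, k⟩ ⟨e', k'⟩ h
  obtain ⟨a, b, he, hab, hlt⟩ := exists_orient G ho e
  obtain ⟨a', b', he', hab', hlt'⟩ := exists_orient G ho e'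
  simp only [idx, he, he', pick_mk, hlt, hlt', if_true, Prod.mk.injEq, Nat.pair_eq_pair] at h
  obtain ⟨rfl, h1, rfl⟩ := h
  have : b = b' := by
    rcases lt_trichotomy (o b) (o b') with h | h | h
    · exact absurd h1 (rank_lt G hloc o hab h).ne
    · exact ho h
    · exact absurd h1 (rank_lt G hloc o hab' h).ne'
  subst this
  exact Prod.ext (Subtype.ext (he.trans he'.symm)) rfl

lemma pull_edgeU {o : ℕ → ℝ} (ho : Function.Injective o) (U : ℕ × ℕ → ℝ) :
    pull (Subtype.val : G.edgeSet → Sym2 ℕ) (edgeU G o U) = fun i => U (idx G o i) := by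
  funext ⟨e, k⟩
  obtain ⟨a, b, he, _, hlt⟩ := exists_orient G ho e
  simp only [pull, edgeU, idx, he, pick_mk, hlt, if_true]

lemma key_injective {o : ℕ → ℝ} (ho : Function.Injective o) : Function.Injective (key o) := by
  intro e e' h
  have h' := toLex.injective h
  exact Sym2.map.injective ho (Sym2.inf_eq_inf_and_sup_eq_sup.1
    ⟨congrArg Prod.snd h', congrArg Prod.fst h'⟩)

lemma law_PhiG (hloc : ∀ v, (G.neighborSet v).Finite) (ν : Measure (G.edgeSet → Bool))
    [IsProbabilityMeasure ν] (hc : Consistent ν (predE G)) {o : ℕ → ℝ}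
    (ho : Function.Injective o) :
    (Q0 ℕ).map (fun U => PhiG G o U ∘ (Subtype.val : G.edgeSet → Sym2 ℕ)) = ν := by
  have h1 : ∀ U, PhiG G o U ∘ (Subtype.val : G.edgeSet → Sym2 ℕ) =
      Phi (predE G) (fun w v => key o w < key o v) (fun i => U (idx G o i)) := by
    intro U
    rw [← pull_edgeU G ho]
    exact (Phi_pull Subtype.val (predE_comp G) (fun _ _ => Iff.rfl) _).symm
  have h2 := law_Phi ν (goodPred_predE G) (measurable_predE G) hc
    (fun e : G.edgeSet => key o e) ((key_injective ho).comp Subtype.val_injective)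
  have h3 : (Q0 ℕ).map (fun U i => U (idx G o i)) = Q0 G.edgeSet :=
    Measure.map_infinitePi_infinitePi_of_inj (P := fun _ : ℕ × ℕ => mu0)
      (idx_injective G hloc ho)
  have hPhi : Measurable (Phi (predE G) fun w v : G.edgeSet => key o w < key o v) :=
    measurable_Phi (M := fun _ => predE G) (r := fun _ w v => key o w < key o v)
      (fun v => (measurable_predE G v).comp measurable_snd) (fun _ _ => MeasurableSet.const _)
      measurable_id
  rw [← h2, ← h3, Measure.map_map hPhi (by fun_prop)]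
  simp only [h1]
  rfl

/-! ### balls -/

lemma finite_inBall (hloc : ∀ v, (G.neighborSet v).Finite) (a n : ℕ) :
    {w | inBall G a n w}.Finite := by
  induction n with
  | zero => simp [inBall]
  | succ n ih =>
    refine (ih.union (ih.biUnion fun u _ => hloc u)).subset ?_
    rintro w (h | ⟨u, hu, h⟩)
    · exact Or.inl h
    · exact Or.inr (mem_biUnion hu h)

lemma inBall_mono (a w : ℕ) {m n : ℕ} (h : m ≤ n) (hw : inBall G a m w) : inBall G a n w := by
  induction h with
  | refl => exact hw
  | step _ ih => exact Or.inl ih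

lemma exists_inBall {a w : ℕ} (h : G.Reachable a w) : ∃ n, inBall G a n w := by
  obtain ⟨p⟩ := h.symm
  induction p with
  | nil => exact ⟨0, rfl⟩
  | cons hadj p ih =>
    obtain ⟨n, hn⟩ := ih p.reachable.symm
    exact ⟨n + 1, Or.inr ⟨_, hn, hadj.symm⟩⟩

lemma finite_near (hloc : ∀ v, (G.neighborSet v).Finite) (n : ℕ) (e : Sym2 ℕ) :
    {g : G.edgeSet | near G n e g}.Finite := by
  induction e with | _ a b
  have h1 := (finite_inBall G hloc a n).union (finite_inBall G hloc b n)
  refine Set.Finite.preimage Subtype.val_injective.injOn (s := {g | near G n s(a, b) g}) ?_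
  refine ((h1.prod h1).image fun p => s(p.1, p.2)).subset fun g hg => ?_
  induction g with | _ u v
  have key : ∀ w, w ∈ s(u, v) → w ∈ {w | inBall G a n w} ∪ {w | inBall G b n w} := by
    intro w hw
    obtain ⟨c, hc, h⟩ := hg w hw
    rcases Sym2.mem_iff.1 hc with rfl | rfl
    · exact Or.inl h
    · exact Or.inr h
  exact ⟨(u, v), ⟨key u (by simp), key v (by simp)⟩, rfl⟩

lemma exists_near (hG : G.Connected) (e g : Sym2 ℕ) : ∃ n, near G n e g := by
  induction e with | _ a b
  induction g with | _ u v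
  obtain ⟨m, hm⟩ := exists_inBall G (hG a u)
  obtain ⟨n, hn⟩ := exists_inBall G (hG a v)
  refine ⟨max m n, fun w hw => ⟨a, by simp, ?_⟩⟩
  rcases Sym2.mem_iff.1 hw with rfl | rfl
  · exact inBall_mono G _ _ (le_max_left _ _) hm
  · exact inBall_mono G _ _ (le_max_right _ _) hn

/-! ### uniform spanning tree laws -/

/-- indicator configuration of an edge set -/
def indic (A : Finset (Sym2 ℕ)) : G.edgeSet → Bool := fun g => decide ((g : Sym2 ℕ) ∈ A)

/-- the uniform spanning tree law of a piece -/
noncomputable def ustMeas (S : Finset ℕ) : Measure (G.edgeSet → Bool) :=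
  ((trees G S).card : ENNReal)⁻¹ • ∑ A ∈ trees G S, Measure.dirac (indic G A)

lemma card_trees_ne {S : Finset ℕ} (hS : (G.induce (S : Set ℕ)).Connected) :
    (trees G S).card ≠ 0 := by
  obtain ⟨A, hA⟩ := (connected_iff_trees G S).1 hS
  exact Finset.card_ne_zero.2 ⟨A, mem_trees.2 hA⟩

lemma isProb_ustMeas {S : Finset ℕ} (hS : (G.induce (S : Set ℕ)).Connected) :
    IsProbabilityMeasure (ustMeas G S) := by
  constructor
  simp only [ustMeas, Measure.smul_apply, Measure.coe_finsetSum, Finset.sum_apply, measure_univ,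
    Finset.sum_const, nsmul_eq_mul, mul_one, smul_eq_mul]
  exact ENNReal.inv_mul_cancel (by simpa using card_trees_ne G hS) (by simp)

lemma integral_ustMeas (S : Finset ℕ) (f : (G.edgeSet → Bool) → ℝ) :
    ∫ x, f x ∂ustMeas G S = (∑ A ∈ trees G S, f (indic G A)) / (trees G S).card := by
  unfold ustMeas
  rw [integral_smul_measure, integral_finsetSum_measure
    (fun A _ => integrable_dirac (by simp))]
  simp [div_eq_inv_mul]

lemma wt_indic (n : ℕ) (e : Sym2 ℕ) (F : Finset G.edgeSet) (hF : ∀ g, g ∈ F ↔ near G n e g)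
    (h : G.edgeSet → ℝ) {S : Finset ℕ} {A : Finset (Sym2 ℕ)} (hA : A ∈ trees G S) :
    wt F h (indic G A) = ∏ g ∈ A, Real.exp (cut G n e (extE G h) g) := by
  classical
  rw [← Real.exp_sum, wt]
  congr 1
  have hA' : ∀ g ∈ A, g ∈ G.edgeSet := fun g hg => edgesIn_subset G S ((mem_trees.1 hA).1 hg)
  unfold cut
  rw [← Finset.sum_filter, ← Finset.sum_filter]
  refine Finset.sum_bij (fun w _ => (w : Sym2 ℕ)) ?_ ?_ ?_ ?_
  · intro w hw
    simp only [Finset.mem_filter, indic, decide_eq_true_eq, hF] at hw ⊢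
    exact ⟨hw.2, hw.1⟩
  · intro w _ w' _ h; exact Subtype.ext h
  · intro g hg
    simp only [Finset.mem_filter] at hg
    exact ⟨⟨g, hA' g hg.1⟩, by simp [indic, hF, hg.1, hg.2], rfl⟩
  · intro w _
    simp [extE]

lemma tilt_ustMeas (n : ℕ) (v : G.edgeSet) (F : Finset G.edgeSet)
    (hF : ∀ g, g ∈ F ↔ near G n v g) (h : G.edgeSet → ℝ) {S : Finset ℕ}
    (hS : (G.induce (S : Set ℕ)).Connected) :
    tilt (ustMeas G S) F v h = ustP G S (fun g => Real.exp (cut G n v (extE G h) g)) v := by
  unfold tilt ustP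
  rw [integral_ustMeas, integral_ustMeas,
    div_div_div_cancel_right₀ (Nat.cast_ne_zero.2 (card_trees_ne G hS))]
  congr 1
  · refine Finset.sum_congr rfl fun A hA => ?_
    rw [wt_indic G n v F hF h hA]
    by_cases hv : (v : Sym2 ℕ) ∈ A <;> simp [ind, indic, hv]
  · exact Finset.sum_congr rfl fun A hA => wt_indic G n v F hF h hA

lemma eventually_subset {S : ℕ → Finset ℕ} (hm : Monotone S) (hu : ∀ v, ∃ n, v ∈ S n)
    (T : Finset ℕ) : ∀ᶠ n in atTop, T ⊆ S n := by
  have : ∀ v ∈ T, ∀ᶠ n in atTop, v ∈ S n := fun v _ => by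
    obtain ⟨n, hn⟩ := hu v
    exact (eventually_ge_atTop n).mono fun m h => hm h hn
  exact (Filter.eventually_all_finset T).2 this

lemma tendsto_ustP {S : ℕ → Finset ℕ} (hm : Monotone S) (hu : ∀ v, ∃ n, v ∈ S n)
    (hS : ∀ n, (G.induce (S n : Set ℕ)).Connected) (v : G.edgeSet) (h : Sym2 ℕ → ℝ) :
    Tendsto (fun n => ustP G (S n) (fun g => Real.exp (h g)) v) atTop (𝓝 (freeVal G v h)) := by
  have hv : ∀ᶠ n in atTop, (v : Sym2 ℕ) ∈ edgesIn G (S n) := by
    obtain ⟨e, he⟩ := v
    induction e with | _ a b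
    filter_upwards [eventually_subset hm hu {a, b}] with n hn
    exact mem_edgesIn.2 ⟨hn (by simp), hn (by simp), he⟩
  refine tendsto_order.2 ⟨fun a ha => ?_, fun a ha => ?_⟩
  · filter_upwards [hv] with n hn
    refine ha.trans_le ((freeVal_le G v h (S n)).trans_eq (if_pos ⟨hS n, hn⟩))
  · obtain ⟨T, hT⟩ := exists_lt_of_ciInf_lt ha
    filter_upwards [eventually_subset hm hu T] with n hn
    refine lt_of_le_of_lt ?_ hT
    unfold pieceVal
    split_ifs with h'
    · exact ustP_anti h'.1 (hS n) hn (fun _ => Real.exp_pos _) h'.2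
    · exact ustP_le_one G _ (fun _ => Real.exp_pos _) _

lemma continuous_of_bool {V : Type*} (v : V) (f : Bool → ℝ) :
    Continuous fun x : V → Bool => f (x v) :=
  (continuous_of_discreteTopology (f := f)).comp (continuous_apply v)

lemma continuous_wt {V : Type*} (F : Finset V) (h : V → ℝ) : Continuous (wt F h) := by
  unfold wt
  exact Real.continuous_exp.comp (continuous_finsetSum _ fun w _ =>
    continuous_of_bool w fun b => if b then h w else 0)

lemma continuous_tilt {V : Type*} [Countable V] (F : Finset V) (v : V) (h : V → ℝ) :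
    Continuous fun μ : ProbabilityMeasure (V → Bool) => tilt μ F v h := by
  unfold tilt
  refine Continuous.div ?_ ?_ fun μ => (integral_wt_pos _ F h).ne'
  · exact ProbabilityMeasure.continuous_integral_continuousMap
      (⟨fun x => ind (x v) * wt F h x, (continuous_of_bool v ind).mul (continuous_wt F h)⟩ :
        C(V → Bool, ℝ))
  · exact ProbabilityMeasure.continuous_integral_continuousMap
      (⟨wt F h, continuous_wt F h⟩ : C(V → Bool, ℝ))

lemma consistent_of_cluster (hG : G.Connected) (hloc : ∀ v, (G.neighborSet v).Finite)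
    {S : ℕ → Finset ℕ} (hm : Monotone S) (hu : ∀ v, ∃ n, v ∈ S n)
    (hS : ∀ n, (G.induce (S n : Set ℕ)).Connected) (ν : ProbabilityMeasure (G.edgeSet → Bool))
    (hν : MapClusterPt ν atTop fun n =>
      (⟨ustMeas G (S n), isProb_ustMeas G (hS n)⟩ : ProbabilityMeasure (G.edgeSet → Bool))) :
    Consistent (ν : Measure (G.edgeSet → Bool)) (predE G) := by
  intro v
  refine ⟨fun n => (finite_near G hloc n v).toFinset, fun m n hmn g hg => ?_, fun w => ?_,
    fun h ℓ hℓ => ?_⟩
  · simp only [Set.Finite.mem_toFinset, mem_ofPred_eq] at hg ⊢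
    intro w hw
    obtain ⟨a, ha, h⟩ := hg w hw
    exact ⟨a, ha, inBall_mono G _ _ hmn h⟩
  · simpa using exists_near G hG v w
  · have key : ∀ n, tilt ν (finite_near G hloc n v).toFinset v h =
        freeVal G v (cut G n v (extE G h)) := by
      intro n
      have h1 := hν.continuousAt_comp
        (continuous_tilt (finite_near G hloc n v).toFinset v h).continuousAt
      have h2 := tendsto_ustP G hm hu hS v (cut G n v (extE G h))
      have h3 : ((fun μ : ProbabilityMeasure (G.edgeSet → Bool) =>
          tilt μ (finite_near G hloc n v).toFinset v h) ∘ fun n =>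
          (⟨ustMeas G (S n), isProb_ustMeas G (hS n)⟩ : ProbabilityMeasure (G.edgeSet → Bool))) =
          fun k => ustP G (S k) (fun g => Real.exp (cut G n v (extE G h) g)) v := by
        funext k
        exact tilt_ustMeas G n v _ (fun g => by simp) h (hS k)
      rw [h3] at h1
      exact eq_of_nhds_neBot (h1.clusterPt.mono h2)
    simp only [key] at hℓ
    exact hℓ.limsup_eq

end Crest.Agent.R168
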