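import Mathlib
import Crest.Prelude.Def_SpanningTrees

set_option autoImplicit false

/-!
Weighted matrix-tree theorem and Kirchhoff's variational formula for the probability that a
weighted spanning tree of a finite piece of a graph on `ℕ` contains a given edge.
-/

namespace Crest.Agent.R168

open Matrix Finset
open Crest.ProbabilityR.SpanningTrees

section CB

variable {n ι R : Type*} [Fintype n] [DecidableEq n] [DecidableEq ι] [CommRing R]

/-- weighted Gram matrix of a family of vectors -/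
def gram (E : Finset ι) (c : ι → R) (β : ι → n → R) : Matrix n n R :=
  ∑ g ∈ E, c g • vecMulVec (β g) (β g)

omit [DecidableEq ι] in
lemma det_gram_expand (E : Finset ι) (c : ι → R) (β : ι → n → R) :
    (gram E c β).det = ∑ p ∈ Fintype.piFinset (fun _ : n => E),
      (∏ i, c (p i)) * ((∏ i, β (p i) i) * (Matrix.of fun i => β (p i)).det) := by
  have h1 : gram E c β = fun i => ∑ g ∈ E, (c g * β g i) • β g := by
    ext i j
    simp [gram, Matrix.sum_apply, vecMulVec_apply, mul_assoc]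
  have h2 := (detRowAlternating : (n → R) [⋀^n]→ₗ[R] R).toMultilinearMap.map_sum_finset
    (fun (i : n) (g : ι) => (c g * β g i) • β g) (fun _ => E)
  rw [h1]
  refine h2.trans (Finset.sum_congr rfl fun p _ => ?_)
  rw [MultilinearMap.map_smul_univ, Finset.prod_mul_distrib, smul_eq_mul, mul_assoc]
  rfl

omit [DecidableEq ι] in
lemma det_rows_of_not_inj (β : ι → n → R) {p : n → ι} (hp : ¬ Function.Injective p) :
    (Matrix.of fun i => β (p i)).det = 0 := by
  simp only [Function.Injective, not_forall] at hp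
  obtain ⟨i, j, hij, hne⟩ := hp
  exact det_zero_of_row_eq hne (by ext k; simp [hij])

theorem cauchy_binet_gram (E : Finset ι) (c : ι → R) (β : ι → n → R) :
    (gram E c β).det =
      ∑ A ∈ E.powersetCard (Fintype.card n), (∏ g ∈ A, c g) * (gram A (fun _ => 1) β).det := by
  classical
  rw [det_gram_expand, ← Finset.sum_filter_of_ne (p := fun p => Function.Injective p)]
  swap
  · intro p _ hp
    by_contra h
    simp [det_rows_of_not_inj β h] at hp
  rw [← Finset.sum_fiberwise_of_maps_to (t := E.powersetCard (Fintype.card n))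
    (g := fun p => Finset.univ.image p)]
  swap
  · intro p hp
    simp only [Finset.mem_filter, Fintype.mem_piFinset] at hp
    rw [Finset.mem_powersetCard, Finset.card_image_of_injective _ hp.2]
    refine ⟨fun g hg => ?_, rfl⟩
    obtain ⟨i, _, rfl⟩ := Finset.mem_image.1 hg
    exact hp.1 i
  refine Finset.sum_congr rfl fun A hA => ?_
  rw [Finset.mem_powersetCard] at hA
  rw [det_gram_expand, ← Finset.sum_filter_of_ne (s := Fintype.piFinset fun _ : n => A)
    (p := fun p => Function.Injective p), Finset.mul_sum]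
  swap
  · intro p _ hp
    by_contra h
    simp [det_rows_of_not_inj β h] at hp
  refine Finset.sum_congr ?_ fun p hp => ?_
  · ext p
    simp only [Finset.mem_filter, Fintype.mem_piFinset]
    constructor
    · rintro ⟨⟨_, h2⟩, rfl⟩
      exact ⟨fun i => Finset.mem_image_of_mem _ (Finset.mem_univ _), h2⟩
    · rintro ⟨h1, h2⟩
      refine ⟨⟨fun i => hA.1 (h1 i), h2⟩, Finset.eq_of_subset_of_card_le (fun g hg => ?_) ?_⟩
      · obtain ⟨i, _, rfl⟩ := Finset.mem_image.1 hg
        exact h1 i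
      · rw [Finset.card_image_of_injective _ h2, hA.2]; rfl
  · simp only [Finset.mem_filter, Fintype.mem_piFinset] at hp
    have himg : Finset.univ.image p = A := by
      refine Finset.eq_of_subset_of_card_le (fun g hg => ?_) ?_
      · obtain ⟨i, _, rfl⟩ := Finset.mem_image.1 hg
        exact hp.1 i
      · rw [Finset.card_image_of_injective _ hp.2, hA.2]; rfl
    rw [← himg, Finset.prod_image (fun i _ j _ h => hp.2 h)]
    simp

omit [DecidableEq ι] in
lemma det_gram_square (A : Finset ι) (β : ι → n → R) (e : n ≃ A) :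
    (gram A (fun _ => 1) β).det = (Matrix.of fun i => β (e i)).det ^ 2 := by
  have : gram A (fun _ => (1 : R)) β =
      (Matrix.of fun i => β (e i))ᵀ * (Matrix.of fun i => β (e i)) := by
    ext i j
    simp only [gram, one_smul, Matrix.sum_apply, vecMulVec_apply, Matrix.mul_apply,
      transpose_apply, of_apply]
    rw [← Finset.sum_coe_sort A, ← e.sum_comp]
  rw [this, det_mul, det_transpose, sq]

omit [DecidableEq ι] [DecidableEq n] in
lemma dot_gram (E : Finset ι) (c : ι → R) (β : ι → n → R) (x y : n → R) :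
    x ⬝ᵥ gram E c β *ᵥ y = ∑ g ∈ E, c g * ((β g ⬝ᵥ x) * (β g ⬝ᵥ y)) := by
  unfold gram
  rw [Matrix.sum_mulVec, dotProduct_sum]
  refine Finset.sum_congr rfl fun g _ => ?_
  rw [smul_mulVec, vecMulVec_mulVec, dotProduct_smul, dotProduct_smul, dotProduct_comm x]
  simp

end CB

section Graph

variable {R : Type*} [CommRing R]

/-- gradient along an (increasingly oriented) pair -/
def grad (f : ℕ → R) (g : Sym2 ℕ) : R := f g.inf - f g.sup

/-- reduced incidence vector -/
def inc (R : Type*) [CommRing R] (S : Finset ℕ) (b : ℕ) (g : Sym2 ℕ) : S.erase b → R :=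
  fun x => (if (x : ℕ) = g.inf then 1 else 0) - if (x : ℕ) = g.sup then 1 else 0

/-- extension by zero -/
def ext0 {S : Finset ℕ} {b : ℕ} (x : S.erase b → R) : ℕ → R :=
  fun y => if h : y ∈ S.erase b then x ⟨y, h⟩ else 0

lemma sum_ite_ext0 {S : Finset ℕ} {b : ℕ} (x : S.erase b → R) (a : ℕ) :
    ∑ w : S.erase b, (if (w : ℕ) = a then 1 else 0) * x w = ext0 x a := by
  unfold ext0
  split_ifs with h
  · rw [Finset.sum_eq_single ⟨a, h⟩]
    · simp
    · intro w _ hw
      rw [if_neg (fun h' => hw (Subtype.ext h')), zero_mul]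
    · simp
  · refine Finset.sum_eq_zero fun w _ => ?_
    rw [if_neg (fun h' : (w : ℕ) = a => h (h' ▸ w.2)), zero_mul]

lemma inc_dot {S : Finset ℕ} {b : ℕ} (x : S.erase b → R) (g : Sym2 ℕ) :
    inc R S b g ⬝ᵥ x = grad (ext0 x) g := by
  simp only [dotProduct, inc, sub_mul, Finset.sum_sub_distrib, sum_ite_ext0, grad]

lemma grad_eq_zero_iff (f : ℕ → R) (u v : ℕ) : grad f s(u, v) = 0 ↔ f u = f v := by
  unfold grad
  rcases le_total u v with h | h
  · simp [h, sub_eq_zero]
  · simp [h, sub_eq_zero, eq_comm]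

lemma mem_edgesIn {G : SimpleGraph ℕ} {S : Finset ℕ} {u v : ℕ} :
    s(u, v) ∈ edgesIn G S ↔ u ∈ S ∧ v ∈ S ∧ G.Adj u v := by
  simp [edgesIn, and_assoc]

lemma inf_sup_mem {G : SimpleGraph ℕ} {S : Finset ℕ} {g : Sym2 ℕ} (hg : g ∈ edgesIn G S) :
    g.inf ∈ S ∧ g.sup ∈ S := by
  induction g with | _ u v
  rw [mem_edgesIn] at hg
  rcases le_total u v with h | h <;> simp [h, hg.1, hg.2.1]

lemma grad_ext0 {G : SimpleGraph ℕ} {S : Finset ℕ} (b : ℕ) (f : ℕ → R) {g : Sym2 ℕ}
    (hg : g ∈ edgesIn G S) :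
    grad (ext0 (fun w : S.erase b => f w - f b)) g = grad f g := by
  have key : ∀ a ∈ S, ext0 (fun w : S.erase b => f w - f b) a = f a - f b := by
    intro a ha
    unfold ext0
    split_ifs with h
    · rfl
    · have : a = b := by
        by_contra h'
        exact h (Finset.mem_erase.2 ⟨h', ha⟩)
      simp [this]
  unfold grad
  rw [key _ (inf_sup_mem hg).1, key _ (inf_sup_mem hg).2]; ring

lemma eq_zero_of_conn {S : Finset ℕ} {b : ℕ} (hb : b ∈ S) (H : SimpleGraph (S : Set ℕ))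
    (hH : H.Connected) (x : S.erase b → R)
    (hx : ∀ u v : (S : Set ℕ), H.Adj u v → grad (ext0 x) s((u : ℕ), (v : ℕ)) = 0) : x = 0 := by
  have key : ∀ u v : (S : Set ℕ), H.Reachable u v → ext0 x u = ext0 x v := by
    rintro u v ⟨w⟩
    induction w with
    | nil => rfl
    | cons h _ ih => exact ((grad_eq_zero_iff _ _ _).1 (hx _ _ h)).trans ih
  funext w
  have := key ⟨w, Finset.mem_coe.2 (Finset.mem_of_mem_erase w.2)⟩ ⟨b, hb⟩ (hH _ _)
  simpa [ext0, (Finset.mem_erase.1 w.2).1, Finset.mem_of_mem_erase w.2] using this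

/-- the graph on `S` with edge set `A` -/
abbrev sub (S : Finset ℕ) (A : Finset (Sym2 ℕ)) : SimpleGraph (S : Set ℕ) :=
  (SimpleGraph.fromEdgeSet (A : Set (Sym2 ℕ))).induce (S : Set ℕ)

lemma det_sq_of_conn {S : Finset ℕ} {b : ℕ} (hb : b ∈ S) (A : Finset (Sym2 ℕ))
    (e : S.erase b ≃ A) (hH : (sub S A).Connected) :
    (Matrix.of fun i => inc ℝ S b (e i)).det ^ 2 = 1 := by
  have hmap : ∀ (K : Type) [CommRing K], (Matrix.of fun i => inc K S b (e i)).det =
      ((Matrix.of fun i => inc ℤ S b (e i)).det : K) := by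
    intro K _
    rw [← eq_intCast (Int.castRingHom K), RingHom.map_det]
    congr 1
    ext i j
    simp only [of_apply, inc, RingHom.mapMatrix_apply, map_apply, map_sub]
    split_ifs <;> simp
  have hne : ((Matrix.of fun i => inc ℤ S b (e i)).det).natAbs = 1 := by
    by_contra hne
    obtain ⟨p, hp, hdvd⟩ := Nat.exists_prime_and_dvd hne
    have := Fact.mk hp
    have h0 : (Matrix.of fun i => inc (ZMod p) S b (e i)).det = 0 := by
      rw [hmap, ZMod.intCast_zmod_eq_zero_iff_dvd]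
      exact Int.natCast_dvd.2 hdvd
    obtain ⟨x, hx0, hx⟩ := Matrix.exists_mulVec_eq_zero_iff.2 h0
    refine hx0 (eq_zero_of_conn hb _ hH x fun u v huv => ?_)
    have hA : s((u : ℕ), (v : ℕ)) ∈ A := by
      have : (SimpleGraph.fromEdgeSet (A : Set (Sym2 ℕ))).Adj u v := huv
      exact ((SimpleGraph.fromEdgeSet_adj _).1 this).1
    have := congrFun hx (e.symm ⟨_, hA⟩)
    rw [← inc_dot]
    simpa [mulVec] using this
  rw [hmap, ← Int.cast_pow, ← Int.natAbs_sq, hne]
  simp

lemma det_of_not_conn {G : SimpleGraph ℕ} {S : Finset ℕ} {b : ℕ} (hb : b ∈ S)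
    (A : Finset (Sym2 ℕ)) (hA : A ⊆ edgesIn G S)
    (e : S.erase b ≃ A) (hH : ¬ (sub S A).Connected) :
    (Matrix.of fun i => inc ℝ S b (e i)).det = 0 := by
  classical
  have : Nonempty (S : Set ℕ) := ⟨⟨b, hb⟩⟩
  have h1 : ∃ y : (S : Set ℕ), ¬ (sub S A).Reachable ⟨b, hb⟩ y := by
    by_contra h
    push Not at h
    exact hH ⟨fun u v => (h u).symm.trans (h v)⟩
  obtain ⟨y, hy⟩ := h1
  let f : ℕ → ℝ := fun a => if ∃ h : a ∈ (S : Set ℕ), (sub S A).Reachable ⟨b, hb⟩ ⟨a, h⟩ then 0 else 1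
  have hfb : f b = 0 := if_pos ⟨hb, SimpleGraph.Reachable.refl _⟩
  refine Matrix.exists_mulVec_eq_zero_iff.1 ⟨fun w => f w - f b, fun h0 => ?_, ?_⟩
  · have hyb : (y : ℕ) ≠ b := fun h => hy (by
      have : y = ⟨b, hb⟩ := Subtype.ext h
      rw [this])
    have := congrFun h0 ⟨y, Finset.mem_erase.2 ⟨hyb, y.2⟩⟩
    have hfy : f y = 1 := if_neg fun ⟨_, h⟩ => hy h
    simp [hfb, hfy] at this
  · funext i
    have hi := hA (e i).2
    have : (Matrix.of fun i => inc ℝ S b (e i)).mulVec (fun w => f w - f b) i =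
        inc ℝ S b (e i) ⬝ᵥ fun w => f w - f b := rfl
    rw [this, inc_dot, grad_ext0 b f hi]
    have hi' := (e i).2
    generalize ((e i : A) : Sym2 ℕ) = g at hi hi'
    induction g with | _ u v
    rw [mem_edgesIn] at hi
    have hadj : (sub S A).Adj ⟨u, hi.1⟩ ⟨v, hi.2.1⟩ :=
      (SimpleGraph.fromEdgeSet_adj _).2 ⟨hi', hi.2.2.ne⟩
    rw [Pi.zero_apply, grad_eq_zero_iff]
    simp only [f]
    congr 1
    exact propext ⟨fun ⟨_, h⟩ => ⟨hi.2.1, h.trans hadj.reachable⟩,
      fun ⟨_, h⟩ => ⟨hi.1, h.trans hadj.symm.reachable⟩⟩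

lemma card_edgeSet_sub {G : SimpleGraph ℕ} {S : Finset ℕ} (A : Finset (Sym2 ℕ))
    (hA : A ⊆ edgesIn G S) : Nat.card (sub S A).edgeSet = A.card := by
  have : Sym2.map Subtype.val '' (sub S A).edgeSet = (A : Set (Sym2 ℕ)) := by
    ext g
    constructor
    · rintro ⟨g', hg', rfl⟩
      induction g' with | _ u v
      exact ((SimpleGraph.fromEdgeSet_adj _).1 hg').1
    · intro hg
      induction g with | _ u v
      have := mem_edgesIn.1 (hA hg)
      exact ⟨s(⟨u, this.1⟩, ⟨v, this.2.1⟩), (SimpleGraph.fromEdgeSet_adj _).2 ⟨hg, this.2.2.ne⟩, rfl⟩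
  rw [Nat.card_coe_set_eq, ← Set.ncard_image_of_injective _ (Sym2.map.injective Subtype.val_injective),
    this, Set.ncard_coe_finset]

open Classical in
/-- the spanning trees of the piece -/
noncomputable def trees (G : SimpleGraph ℕ) (S : Finset ℕ) : Finset (Finset (Sym2 ℕ)) :=
  (edgesIn G S).powerset.filter fun A => IsSpanningTreeOn G S A

theorem matrix_tree (G : SimpleGraph ℕ) {S : Finset ℕ} {b : ℕ} (hb : b ∈ S) (c : Sym2 ℕ → ℝ) :
    (gram (edgesIn G S) c (inc ℝ S b)).det = ∑ A ∈ trees G S, ∏ g ∈ A, c g := by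
  classical
  have hcard : Fintype.card (S.erase b) + 1 = Nat.card (S : Set ℕ) := by
    simp [Finset.card_erase_add_one hb]
  rw [cauchy_binet_gram, trees, Finset.powersetCard_eq_filter, Finset.sum_filter, Finset.sum_filter]
  refine Finset.sum_congr rfl fun A hA => ?_
  have hA' := Finset.mem_powerset.1 hA
  have ht : IsSpanningTreeOn G S A ↔ (sub S A).Connected ∧ A.card = Fintype.card (S.erase b) := by
    unfold IsSpanningTreeOn
    rw [SimpleGraph.isTree_iff_connected_and_card, card_edgeSet_sub A hA', ← hcard]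
    simp [hA']
  by_cases hc : A.card = Fintype.card (S.erase b)
  · have e : S.erase b ≃ A := Fintype.equivOfCardEq (by simp [hc])
    rw [if_pos hc, det_gram_square A _ e]
    by_cases hH : (sub S A).Connected
    · rw [det_sq_of_conn hb A e hH, if_pos (ht.2 ⟨hH, hc⟩), mul_one]
    · rw [det_of_not_conn hb A hA' e hH, if_neg (fun h => hH (ht.1 h).1)]; simp
  · rw [if_neg hc, if_neg (fun h => hc (ht.1 h).2)]

/-- probability that the weighted spanning tree of the piece contains `e` -/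
noncomputable def ustP (G : SimpleGraph ℕ) (S : Finset ℕ) (c : Sym2 ℕ → ℝ) (e : Sym2 ℕ) : ℝ :=
  (∑ A ∈ trees G S, if e ∈ A then ∏ g ∈ A, c g else 0) / ∑ A ∈ trees G S, ∏ g ∈ A, c g

/-- Dirichlet energy -/
noncomputable def energy (G : SimpleGraph ℕ) (S : Finset ℕ) (c : Sym2 ℕ → ℝ) (f : ℕ → ℝ) : ℝ :=
  ∑ g ∈ edgesIn G S, c g * grad f g ^ 2

lemma det_gram_ne {G : SimpleGraph ℕ} {S : Finset ℕ} (hS : (G.induce (S : Set ℕ)).Connected)
    {b : ℕ} (hb : b ∈ S) {c : Sym2 ℕ → ℝ} (hc : ∀ g, 0 < c g) :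
    (gram (edgesIn G S) c (inc ℝ S b)).det ≠ 0 := by
  intro h0
  obtain ⟨x, hx0, hx⟩ := Matrix.exists_mulVec_eq_zero_iff.2 h0
  refine hx0 (eq_zero_of_conn hb _ hS x fun u v huv => ?_)
  have h1 := dot_gram (edgesIn G S) c (inc ℝ S b) x x
  rw [hx, dotProduct_zero] at h1
  have h2 := (Finset.sum_eq_zero_iff_of_nonneg (fun g _ =>
    mul_nonneg (hc g).le (mul_self_nonneg _))).1 h1.symm s((u : ℕ), (v : ℕ))
    (mem_edgesIn.2 ⟨u.2, v.2, huv⟩)
  rw [← inc_dot]
  exact mul_self_eq_zero.1 ((mul_eq_zero.1 h2).resolve_left (hc _).ne')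

lemma treeSum_pos {G : SimpleGraph ℕ} {S : Finset ℕ} (hS : (G.induce (S : Set ℕ)).Connected)
    {c : Sym2 ℕ → ℝ} (hc : ∀ g, 0 < c g) : 0 < ∑ A ∈ trees G S, ∏ g ∈ A, c g := by
  obtain ⟨⟨b, hb⟩⟩ := hS.nonempty
  refine lt_of_le_of_ne (Finset.sum_nonneg fun A _ => Finset.prod_nonneg fun g _ => (hc g).le) ?_
  rw [← matrix_tree G (Finset.mem_coe.1 hb)]
  exact (det_gram_ne hS hb hc).symm

theorem kirchhoff {G : SimpleGraph ℕ} {S : Finset ℕ} (hS : (G.induce (S : Set ℕ)).Connected)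
    {c : Sym2 ℕ → ℝ} (hc : ∀ g, 0 < c g) {e : Sym2 ℕ} (he : e ∈ edgesIn G S) :
    ∃ f : ℕ → ℝ, ustP G S c e = c e * grad f e ∧
      ∀ f' : ℕ → ℝ, ∑ g ∈ edgesIn G S, c g * (grad f' g * grad f g) = grad f' e := by
  classical
  obtain ⟨⟨b, hb⟩⟩ := hS.nonempty
  have hb' : b ∈ S := hb
  set L := gram (edgesIn G S) c (inc ℝ S b) with hL
  have hdet : L.det ≠ 0 := det_gram_ne hS hb' hc
  set y := L⁻¹ *ᵥ inc ℝ S b e with hy
  have hLy : L *ᵥ y = inc ℝ S b e := by
    rw [hy, mulVec_mulVec, Matrix.mul_nonsing_inv _ (isUnit_iff_ne_zero.2 hdet), one_mulVec]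
  refine ⟨ext0 y, ?_, fun f' => ?_⟩
  · have h1 : gram (edgesIn G S) (Function.update c e (2 * c e)) (inc ℝ S b) =
        L * (1 + vecMulVec (c e • y) (inc ℝ S b e)) := by
      rw [Matrix.mul_add, Matrix.mul_one, Matrix.mul_vecMulVec, mulVec_smul, hLy, hL, gram, gram,
        ← Finset.add_sum_erase _ _ he, ← Finset.add_sum_erase _ _ he, Function.update_self,
        Finset.sum_congr rfl (fun g hg => by
          rw [Function.update_of_ne (Finset.mem_erase.1 hg).1]), smul_vecMulVec, two_mul, add_smul]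
      abel
    have h2 := congrArg Matrix.det h1
    rw [det_mul, vecMulVec_eq Unit, det_one_add_replicateCol_mul_replicateRow, dotProduct_smul,
      inc_dot, matrix_tree G hb', hL, matrix_tree G hb'] at h2
    have h3 : ∑ A ∈ trees G S, ∏ g ∈ A, Function.update c e (2 * c e) g =
        ∑ A ∈ trees G S, ∏ g ∈ A, c g + ∑ A ∈ trees G S, if e ∈ A then ∏ g ∈ A, c g else 0 := by
      rw [← Finset.sum_add_distrib]
      refine Finset.sum_congr rfl fun A _ => ?_
      split_ifs with h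
      · rw [Finset.prod_update_of_mem h, Finset.sdiff_singleton_eq_erase,
          ← Finset.mul_prod_erase A c h]; ring
      · rw [Finset.prod_update_of_notMem h, add_zero]
    rw [h3] at h2
    unfold ustP
    rw [div_eq_iff (treeSum_pos hS hc).ne']
    simp only [smul_eq_mul] at h2
    linarith
  · have h1 := dot_gram (edgesIn G S) c (inc ℝ S b) (fun w => f' w - f' b) y
    rw [← hL, hLy, dotProduct_comm, inc_dot, grad_ext0 b f' he] at h1
    rw [h1]
    refine Finset.sum_congr rfl fun g hg => ?_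
    rw [inc_dot, inc_dot, grad_ext0 b f' hg]

lemma ustP_var {G : SimpleGraph ℕ} {S : Finset ℕ} (hS : (G.induce (S : Set ℕ)).Connected)
    {c : Sym2 ℕ → ℝ} (hc : ∀ g, 0 < c g) {e : Sym2 ℕ} (he : e ∈ edgesIn G S) :
    (∀ f', c e * (2 * grad f' e - energy G S c f') ≤ ustP G S c e) ∧
      ∃ f, ustP G S c e = c e * (2 * grad f e - energy G S c f) := by
  obtain ⟨f, h1, h2⟩ := kirchhoff hS hc he
  have h3 : energy G S c f = grad f e := by
    rw [← h2 f]; simp only [energy, sq]
  refine ⟨fun f' => ?_, f, by rw [h1, h3]; ring⟩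
  rw [h1]
  refine mul_le_mul_of_nonneg_left ?_ (hc e).le
  have h4 : 0 ≤ ∑ g ∈ edgesIn G S, c g * (grad f' g - grad f g) ^ 2 :=
    Finset.sum_nonneg fun g _ => mul_nonneg (hc g).le (sq_nonneg _)
  have h5 : ∑ g ∈ edgesIn G S, c g * (grad f' g - grad f g) ^ 2 =
      energy G S c f' - 2 * ∑ g ∈ edgesIn G S, c g * (grad f' g * grad f g) + energy G S c f := by
    simp only [energy, Finset.mul_sum, ← Finset.sum_sub_distrib, ← Finset.sum_add_distrib]
    exact Finset.sum_congr rfl fun g _ => by ring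
  rw [h5, h2, h3] at h4
  linarith

lemma edgesIn_mono (G : SimpleGraph ℕ) {S S' : Finset ℕ} (h : S ⊆ S') :
    edgesIn G S ⊆ edgesIn G S' := by
  intro g hg
  induction g with | _ u v
  rw [mem_edgesIn] at hg ⊢
  exact ⟨h hg.1, h hg.2.1, hg.2.2⟩

/-- Rayleigh monotonicity -/
lemma ustP_anti {G : SimpleGraph ℕ} {S S' : Finset ℕ} (hS : (G.induce (S : Set ℕ)).Connected)
    (hS' : (G.induce (S' : Set ℕ)).Connected) (h : S ⊆ S')
    {c : Sym2 ℕ → ℝ} (hc : ∀ g, 0 < c g) {e : Sym2 ℕ} (he : e ∈ edgesIn G S) :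
    ustP G S' c e ≤ ustP G S c e := by
  obtain ⟨f, hf⟩ := (ustP_var hS' hc (edgesIn_mono G h he)).2
  refine le_trans ?_ ((ustP_var hS hc he).1 f)
  rw [hf]
  refine mul_le_mul_of_nonneg_left (sub_le_sub_left ?_ _) (hc e).le
  exact Finset.sum_le_sum_of_subset_of_nonneg (edgesIn_mono G h)
    fun g _ _ => mul_nonneg (hc g).le (sq_nonneg _)

lemma ustP_nonneg (G : SimpleGraph ℕ) (S : Finset ℕ) {c : Sym2 ℕ → ℝ} (hc : ∀ g, 0 < c g)
    (e : Sym2 ℕ) : 0 ≤ ustP G S c e := by
  refine div_nonneg (Finset.sum_nonneg fun A _ => ?_)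
    (Finset.sum_nonneg fun A _ => Finset.prod_nonneg fun g _ => (hc g).le)
  split_ifs
  · exact Finset.prod_nonneg fun g _ => (hc g).le
  · exact le_rfl

lemma ustP_le_one (G : SimpleGraph ℕ) (S : Finset ℕ) {c : Sym2 ℕ → ℝ} (hc : ∀ g, 0 < c g)
    (e : Sym2 ℕ) : ustP G S c e ≤ 1 := by
  refine div_le_one_of_le₀ (Finset.sum_le_sum fun A _ => ?_)
    (Finset.sum_nonneg fun A _ => Finset.prod_nonneg fun g _ => (hc g).le)
  split_ifs
  · exact le_rfl
  · exact Finset.prod_nonneg fun g _ => (hc g).le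

lemma ustP_scale {G : SimpleGraph ℕ} {S : Finset ℕ} (hS : (G.induce (S : Set ℕ)).Connected)
    {c c' : Sym2 ℕ → ℝ} (hc : ∀ g, 0 < c g) (hc' : ∀ g, 0 < c' g) {t : ℝ} (ht : 0 < t)
    (h1 : ∀ g, t * c' g ≤ c g) (h2 : ∀ g, t * c g ≤ c' g) {e : Sym2 ℕ} (he : e ∈ edgesIn G S) :
    t ^ 2 * ustP G S c e ≤ ustP G S c' e := by
  obtain ⟨f, hf⟩ := (ustP_var hS hc he).2
  refine le_trans ?_ ((ustP_var hS hc' he).1 fun a => t * f a)
  have hg : ∀ g, grad (fun a => t * f a) g = t * grad f g := fun g => by unfold grad; ring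
  have h3 : energy G S c' (fun a => t * f a) ≤ t * energy G S c f := by
    simp only [energy, hg, Finset.mul_sum]
    refine Finset.sum_le_sum fun g _ => ?_
    have := mul_le_mul_of_nonneg_right (h1 g) (mul_nonneg ht.le (sq_nonneg (grad f g)))
    nlinarith
  have h4 : 0 ≤ 2 * grad f e - energy G S c f := by
    have := ustP_nonneg G S hc e
    rw [hf] at this
    exact nonneg_of_mul_nonneg_right this (hc e) |> fun h => h
  rw [hf, hg]
  calc t ^ 2 * (c e * (2 * grad f e - energy G S c f))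
      = (t * c e) * (t * (2 * grad f e - energy G S c f)) := by ring
    _ ≤ c' e * (t * (2 * grad f e - energy G S c f)) :=
        mul_le_mul_of_nonneg_right (h2 e) (mul_nonneg ht.le h4)
    _ ≤ _ := mul_le_mul_of_nonneg_left (by linarith) (hc' e).le

lemma ustP_lip {G : SimpleGraph ℕ} {S : Finset ℕ} (hS : (G.induce (S : Set ℕ)).Connected)
    (h h' : Sym2 ℕ → ℝ) (ρ : ℝ) (hh : ∀ g, |h g - h' g| ≤ ρ) {e : Sym2 ℕ}
    (he : e ∈ edgesIn G S) :
    ustP G S (fun g => Real.exp (h g)) e ≤ ustP G S (fun g => Real.exp (h' g)) e + 2 * ρ := by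
  have h1 := ustP_scale hS (c := fun g => Real.exp (h g)) (c' := fun g => Real.exp (h' g))
    (fun g => Real.exp_pos _) (fun g => Real.exp_pos _) (Real.exp_pos (-ρ))
    (fun g => by
      rw [← Real.exp_add]; exact Real.exp_le_exp.2 (by linarith [(abs_le.1 (hh g)).1]))
    (fun g => by
      rw [← Real.exp_add]; exact Real.exp_le_exp.2 (by linarith [(abs_le.1 (hh g)).2])) he
  have h2 := ustP_nonneg G S (c := fun g => Real.exp (h g)) (fun g => Real.exp_pos _) e
  have h3 := ustP_le_one G S (c := fun g => Real.exp (h g)) (fun g => Real.exp_pos _) e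
  have h4 : 1 - 2 * ρ ≤ Real.exp (-ρ) ^ 2 := by
    rw [← Real.exp_nat_mul]
    have := Real.add_one_le_exp (((2 : ℕ) : ℝ) * -ρ)
    push_cast at this ⊢
    linarith
  have hρ : 0 ≤ ρ := (abs_nonneg _).trans (hh e)
  nlinarith

end Graph

end Crest.Agent.R168
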