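import Crest.Agent.R168.Defs

set_option autoImplicit false

/-!
Measure-theoretic lemmas: the two observation laws, the change of variables behind the
Rosenblatt transform, and two facts on infinite product measures.
-/

namespace Crest.Agent.R168

open Filter Topology MeasureTheory ProbabilityTheory Set

/-- uniform law on `[0,1]` -/
noncomputable def mu0 : Measure ℝ := volume.restrict (Icc 0 1)

instance : IsProbabilityMeasure mu0 := ⟨by simp [mu0]⟩

/-- density of the observation given the bit -/
noncomputable def pb (b : Bool) (z : ℝ) : ℝ := if b then dens z else 1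

/-- law of the observation given the bit -/
noncomputable def mub (b : Bool) : Measure ℝ := mu0.withDensity fun z => ENNReal.ofReal (pb b z)

lemma pb_pos (b : Bool) (z : ℝ) : 0 < pb b z := by
  unfold pb; split_ifs
  · exact dens_pos z
  · exact one_pos

lemma pb_le (b : Bool) (z : ℝ) : pb b z ≤ 11 / 10 := by
  unfold pb; split_ifs
  · exact dens_le z
  · norm_num

@[fun_prop] lemma measurable_pb (b : Bool) : Measurable (pb b) := by
  unfold pb; cases b
  · simp
  · simpa using measurable_dens

lemma integrable_of_bdd {Ω : Type*} [MeasurableSpace Ω] {μ : Measure Ω} [IsFiniteMeasure μ]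
    {f : Ω → ℝ} (hf : Measurable f) (C : ℝ) (h : ∀ x, |f x| ≤ C) : Integrable f μ :=
  Integrable.of_bound hf.aestronglyMeasurable C (ae_of_all _ h)

lemma integral_mub (b : Bool) (f : ℝ → ℝ) : ∫ z, f z ∂mub b = ∫ z, pb b z * f z ∂mu0 := by
  unfold mub
  rw [integral_withDensity_eq_integral_toReal_smul (by fun_prop) (ae_of_all _ fun _ => by simp)]
  refine integral_congr_ae (ae_of_all _ fun z => ?_)
  simp [ENNReal.toReal_ofReal (pb_pos b z).le]

/-- change of variables: the mixture distribution function maps the mixture law to `mu0`. -/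
lemma integral_cdf (m : ℝ) (h0 : 0 ≤ m) (h1 : m ≤ 1) (f : ℝ → ℝ) :
    ∫ y, (1 + m * (dens y - 1)) * f (y - m * gg y / 10) ∂mu0 = ∫ u, f u ∂mu0 := by
  let F : ℝ → ℝ := fun y => y - m * (y * (1 - y)) / 10
  have hF : ∀ y, HasDerivAt F (1 + m * (2 * y - 1) / 10) y := by
    intro y
    have := (hasDerivAt_id y).sub ((((hasDerivAt_id y).mul
      ((hasDerivAt_const y (1 : ℝ)).sub (hasDerivAt_id y))).const_mul m).div_const 10)
    refine HasDerivAt.congr_deriv (this.congr_of_eventuallyEq (Eventually.of_forall fun x => ?_)) ?_
    · simp [F]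
    · simp; ring
  have hmono : StrictMonoOn F (Icc 0 1) := by
    intro a ha b hb hab
    simp only [F]
    have : (b - m * (b * (1 - b)) / 10) - (a - m * (a * (1 - a)) / 10)
        = (b - a) * (1 - m * (1 - a - b) / 10) := by ring
    have h2 : m * (1 - a - b) ≤ 1 * 1 := by
      by_cases h : 0 ≤ 1 - a - b
      · exact mul_le_mul h1 (by linarith [ha.1, hb.1]) h zero_le_one
      · nlinarith
    have h3 : 0 < (b - a) * (1 - m * (1 - a - b) / 10) := by
      apply mul_pos <;> linarith
    linarith
  have himg : F '' Icc 0 1 = Icc 0 1 := by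
    rw [ContinuousOn.image_Icc_of_monotoneOn zero_le_one (by fun_prop) hmono.monotoneOn]
    simp [F]
  have := integral_image_eq_integral_abs_deriv_smul (s := Icc 0 1) measurableSet_Icc
    (fun y _ => (hF y).hasDerivWithinAt) hmono.injOn f
  rw [himg] at this
  unfold mu0
  rw [this]
  refine setIntegral_congr_fun measurableSet_Icc fun y hy => ?_
  have hc := clamp_of_mem hy.1 hy.2
  have hpos : 0 ≤ 1 + m * (2 * y - 1) / 10 := by nlinarith [hy.1, hy.2]
  simp only [dens, gg, hc, F, smul_eq_mul, abs_of_nonneg hpos]
  congr 1; ring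

instance (b : Bool) : IsProbabilityMeasure (mub b) := by
  have h : ∫ z, (1 : ℝ) ∂mub b = 1 := by
    rw [integral_mub]
    cases b
    · simp [pb]
    · have := integral_cdf 1 zero_le_one le_rfl (fun _ => 1)
      simpa [pb] using this
  have hfin : IsFiniteMeasure (mub b) := by
    unfold mub
    refine isFiniteMeasure_withDensity_ofReal ?_
    exact (integrable_of_bdd (measurable_pb b) (11 / 10) fun z => by
      rw [abs_of_pos (pb_pos b z)]; exact pb_le b z).2
  simp only [integral_const, smul_eq_mul, mul_one] at h
  exact isProbabilityMeasure_iff_real.2 h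

lemma mub_false : mub false = mu0 := by
  simp [mub, pb]

lemma integral_id_mu0 : ∫ z, z ∂mu0 = 1 / 2 := by
  unfold mu0
  rw [integral_Icc_eq_integral_Ioc, ← intervalIntegral.integral_of_le zero_le_one]
  simp

lemma integral_id_mub_true : ∫ z, z ∂mub true = 31 / 60 := by
  rw [integral_mub]
  unfold mu0
  have : ∫ z in Icc (0 : ℝ) 1, pb true z * z = ∫ z in Icc (0 : ℝ) 1, (9 / 10 * z + 1 / 5 * z ^ 2) := by
    refine setIntegral_congr_fun measurableSet_Icc fun y hy => ?_
    simp only [pb, dens, clamp_of_mem hy.1 hy.2, if_true]; ring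
  rw [this, integral_Icc_eq_integral_Ioc, ← intervalIntegral.integral_of_le zero_le_one,
    intervalIntegral.integral_add (by apply Continuous.intervalIntegrable; fun_prop)
      (by apply Continuous.intervalIntegrable; fun_prop)]
  rw [intervalIntegral.integral_const_mul, intervalIntegral.integral_const_mul, integral_id,
    integral_pow]
  norm_num

lemma integrable_id_mub (b : Bool) : Integrable (fun z : ℝ => z) (mub b) := by
  have h : ∀ᵐ z ∂mub b, z ∈ Icc (0 : ℝ) 1 := by
    refine (withDensity_absolutelyContinuous _ _).ae_le ?_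
    exact ae_restrict_mem measurableSet_Icc
  refine Integrable.of_bound (by fun_prop) 1 ?_
  filter_upwards [h] with z hz
  rw [Real.norm_eq_abs, abs_of_nonneg hz.1]; exact hz.2

/-! ### infinite products -/

section Prod

variable {I X : Type*} [MeasurableSpace X]

lemma infinitePi_update [DecidableEq I] (μ : I → Measure X) [∀ j, IsProbabilityMeasure (μ j)]
    (i : I) :
    ((Measure.infinitePi μ).prod (μ i)).map (fun p => Function.update p.1 i p.2) =
      Measure.infinitePi μ := by
  have hm : Measurable fun p : (I → X) × X => Function.update p.1 i p.2 := measurable_update'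
  refine Measure.eq_infinitePi _ fun s t ht => ?_
  rw [Measure.map_apply hm (MeasurableSet.pi s.countable_toSet fun j _ => ht j)]
  by_cases hi : i ∈ s
  · have : (fun p : (I → X) × X => Function.update p.1 i p.2) ⁻¹' (s : Set I).pi t =
        ((s.erase i : Finset I) : Set I).pi t ×ˢ t i := by
      ext p
      simp only [mem_preimage, Set.mem_pi, Finset.mem_coe, mem_prod, Finset.mem_erase]
      constructor
      · intro h
        refine ⟨fun j hj => ?_, ?_⟩
        · have := h j hj.2
          rwa [Function.update_of_ne hj.1] at this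
        · simpa using h i hi
      · rintro ⟨h1, h2⟩ j hj
        by_cases hji : j = i
        · subst hji; simpa using h2
        · rw [Function.update_of_ne hji]; exact h1 j ⟨hji, hj⟩
    rw [this, Measure.prod_prod, Measure.infinitePi_pi _ (fun j _ => ht j),
      Finset.prod_erase_mul _ _ hi]
  · have : (fun p : (I → X) × X => Function.update p.1 i p.2) ⁻¹' (s : Set I).pi t =
        (s : Set I).pi t ×ˢ univ := by
      ext p
      simp only [mem_preimage, Set.mem_pi, Finset.mem_coe, mem_prod, mem_univ, and_true]
      refine forall₂_congr fun j hj => ?_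
      rw [Function.update_of_ne (show j ≠ i from fun h => hi (h ▸ hj))]
    rw [this, Measure.prod_prod, Measure.infinitePi_pi _ (fun j _ => ht j), measure_univ, mul_one]

lemma integral_infinitePi_update [DecidableEq I] (μ : I → Measure X)
    [∀ j, IsProbabilityMeasure (μ j)] (i : I) {f : (I → X) → ℝ} (hf : Measurable f) (C : ℝ)
    (hC : ∀ z, |f z| ≤ C) :
    ∫ z, f z ∂Measure.infinitePi μ =
      ∫ z, ∫ y, f (Function.update z i y) ∂μ i ∂Measure.infinitePi μ := by
  have hm : Measurable fun p : (I → X) × X => Function.update p.1 i p.2 := measurable_update'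
  conv_lhs => rw [← infinitePi_update μ i]
  rw [integral_map hm.aemeasurable hf.aestronglyMeasurable, integral_prod]
  exact integrable_of_bdd (hf.comp hm) C fun p => hC _

lemma infinitePi_withDensity [DecidableEq I] (μ : I → Measure X)
    [∀ j, IsProbabilityMeasure (μ j)] (ρ : I → X → ENNReal) (hρ : ∀ j, Measurable (ρ j))
    (J : Finset I) (μ' : I → Measure X) [∀ j, IsProbabilityMeasure (μ' j)]
    (h1 : ∀ j ∈ J, μ' j = (μ j).withDensity (ρ j)) (h2 : ∀ j ∉ J, μ' j = μ j) :
    (Measure.infinitePi μ).withDensity (fun z => ∏ j ∈ J, ρ j (z j)) = Measure.infinitePi μ' := by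
  refine Measure.eq_infinitePi _ fun s t ht => ?_
  have hst : MeasurableSet ((s : Set I).pi t) := MeasurableSet.pi s.countable_toSet fun j _ => ht j
  rw [withDensity_apply _ hst, ← lintegral_indicator hst]
  let a : I → X → ENNReal := fun j y =>
    (if j ∈ s then (t j).indicator 1 y else 1) * (if j ∈ J then ρ j y else 1)
  have ha : ∀ j, Measurable (a j) := by
    intro j
    refine Measurable.mul ?_ ?_
    · split_ifs
      · exact measurable_one.indicator (ht j)
      · exact measurable_const
    · split_ifs
      · exact hρ j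
      · exact measurable_const
  have e1 : ∀ z, ((s : Set I).pi t).indicator (fun z => ∏ j ∈ J, ρ j (z j)) z =
      ∏ j ∈ s ∪ J, a j (z j) := by
    intro z
    simp only [a, Finset.prod_mul_distrib]
    rw [Finset.prod_ite_mem, Finset.prod_ite_mem, Finset.union_inter_cancel_left,
      Finset.union_inter_cancel_right]
    by_cases hz : z ∈ (s : Set I).pi t
    · have : ∏ j ∈ s, (t j).indicator (1 : X → ENNReal) (z j) = 1 := by
        refine Finset.prod_eq_one fun j hj => ?_
        rw [indicator_of_mem (hz j hj)]; rfl
      rw [indicator_of_mem hz, this, one_mul]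
    · rw [indicator_of_notMem hz]
      simp only [Set.mem_pi, Finset.mem_coe, not_forall] at hz
      obtain ⟨j, hj, hz⟩ := hz
      rw [Finset.prod_eq_zero hj (indicator_of_notMem hz _), zero_mul]
  simp_rw [e1]
  rw [lintegral_prod_eq_prod_lintegral_of_indepFun _ (fun j (z : I → X) => a j (z j))
    (iIndepFun_infinitePi ha) (fun j => (ha j).comp (measurable_pi_apply j))]
  have e2 : ∀ j, ∫⁻ z, a j (z j) ∂Measure.infinitePi μ = if j ∈ s then μ' j (t j) else 1 := by
    intro j
    rw [← lintegral_map (ha j) (measurable_pi_apply j), Measure.infinitePi_map_eval]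
    have key : ∀ u : Set X, MeasurableSet u →
        ∫⁻ y, u.indicator 1 y * (if j ∈ J then ρ j y else 1) ∂μ j = μ' j u := by
      intro u hu
      by_cases hj : j ∈ J
      · rw [h1 j hj, withDensity_apply _ hu, ← lintegral_indicator hu]
        refine lintegral_congr fun y => ?_
        by_cases hy : y ∈ u <;> simp [hj, hy]
      · simp [hj, h2 j hj, lintegral_indicator_one hu]
    by_cases hj : j ∈ s
    · simp only [a, hj, if_true]; exact key _ (ht j)
    · have := key univ MeasurableSet.univ
      simp only [indicator_univ, Pi.one_apply, measure_univ] at this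
      simp only [a, hj, if_false]; exact this
  simp_rw [e2]
  rw [Finset.prod_ite_mem, Finset.union_inter_cancel_left]

lemma infinitePi_sum {A B : Type*} (μ : Measure X) [IsProbabilityMeasure μ] :
    ((Measure.infinitePi fun _ : A => μ).prod (Measure.infinitePi fun _ : B => μ)).map
      (fun p => Sum.elim p.1 p.2) = Measure.infinitePi fun _ : A ⊕ B => μ := by
  have hm : Measurable fun p : (A → X) × (B → X) => Sum.elim p.1 p.2 := by
    refine measurable_pi_lambda _ fun j => ?_
    cases j with
    | inl a => exact (measurable_pi_apply a).comp measurable_fst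
    | inr b => exact (measurable_pi_apply b).comp measurable_snd
  refine Measure.eq_infinitePi _ fun s t ht => ?_
  rw [Measure.map_apply hm (MeasurableSet.pi s.countable_toSet fun j _ => ht j)]
  have : (fun p : (A → X) × (B → X) => Sum.elim p.1 p.2) ⁻¹' (s : Set (A ⊕ B)).pi t =
      ((s.toLeft : Set A).pi fun a => t (Sum.inl a)) ×ˢ
        ((s.toRight : Set B).pi fun b => t (Sum.inr b)) := by
    ext p
    simp [Set.mem_pi]
  rw [this, Measure.prod_prod, Measure.infinitePi_pi _ (fun j _ => ht _),
    Measure.infinitePi_pi _ (fun j _ => ht _), Finset.prod_sum_eq_prod_toLeft_mul_prod_toRight]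

end Prod

end Crest.Agent.R168
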