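import Crest.Agent.R168.Core
import Crest.Prelude.Def_StronglyRayleigh

set_option autoImplicit false

/-!
For a strongly Rayleigh law the tilted one-site marginals are Lipschitz in the sup norm of the
field (a Cauchy estimate on a strip).
-/

namespace Crest.Agent.R168

open Filter Topology MeasureTheory ProbabilityTheory Set
open Crest.ProbabilityR.StronglyRayleigh

variable {V : Type*}

/-- mass of a cylinder -/
noncomputable def cylMass (ν : Measure (V → Bool)) (F S : Finset V) : ℝ :=
  (ν {ω | ∀ i ∈ F, (ω i = true ↔ i ∈ S)}).toReal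

lemma measurableSet_cyl (F S : Finset V) :
    MeasurableSet {ω : V → Bool | ∀ i ∈ F, (ω i = true ↔ i ∈ S)} := by
  have : {ω : V → Bool | ∀ i ∈ F, (ω i = true ↔ i ∈ S)} =
      ⋂ i ∈ F, (fun ω : V → Bool => ω i) ⁻¹' {b | b = true ↔ i ∈ S} := by
    ext ω; simp
  rw [this]
  exact Finset.measurableSet_biInter _ fun i _ => measurable_pi_apply i (MeasurableSet.of_discrete)

lemma integral_filter (ν : Measure (V → Bool)) [IsProbabilityMeasure ν] (F : Finset V)
    (G : Finset V → ℝ) :
    ∫ x, G (F.filter fun i => x i = true) ∂ν = ∑ S ∈ F.powerset, cylMass ν F S * G S := by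
  have e : ∀ x : V → Bool, G (F.filter fun i => x i = true) = ∑ S ∈ F.powerset,
      {ω : V → Bool | ∀ i ∈ F, (ω i = true ↔ i ∈ S)}.indicator (fun _ => G S) x := by
    intro x
    rw [Finset.sum_eq_single (F.filter fun i => x i = true)]
    · rw [indicator_of_mem]
      intro i hi
      simp [hi]
    · intro S hS hne
      rw [indicator_of_notMem]
      intro hx
      apply hne
      ext i
      simp only [Finset.mem_filter]
      exact ⟨fun h => ⟨Finset.mem_powerset.1 hS h, (hx i (Finset.mem_powerset.1 hS h)).2 h⟩,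
        fun h => (hx i h.1).1 h.2⟩
    · intro h
      exact absurd (Finset.mem_powerset.2 (Finset.filter_subset _ _)) h
  simp only [e]
  rw [integral_finsetSum _ fun S _ => (integrable_const _).indicator (measurableSet_cyl F S)]
  refine Finset.sum_congr rfl fun S _ => ?_
  rw [integral_indicator_const _ (measurableSet_cyl F S)]
  rfl

lemma wt_eq (F : Finset V) (h : V → ℝ) (x : V → Bool) :
    wt F h x = ∏ i ∈ F.filter fun i => x i = true, Real.exp (h i) := by
  unfold wt
  rw [← Finset.sum_filter, Real.exp_sum]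

open Classical in
/-- the part of the generating polynomial coming from configurations occupied at `v` -/
noncomputable def genNum (ν : Measure (V → Bool)) (F : Finset V) (v : V) (z : V → ℂ) : ℂ :=
  ∑ S ∈ F.powerset, (cylMass ν F S : ℂ) * if v ∈ S then ∏ i ∈ S, z i else 0

lemma genPoly_real (ν : Measure (V → Bool)) [IsProbabilityMeasure ν] (F : Finset V) (h : V → ℝ) :
    genPoly ν F (fun i => Complex.exp (h i)) = ((∫ x, wt F h x ∂ν : ℝ) : ℂ) := by
  simp only [wt_eq]
  rw [integral_filter ν F (fun S => ∏ i ∈ S, Real.exp (h i))]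
  simp [genPoly, cylMass]

lemma genNum_real (ν : Measure (V → Bool)) [IsProbabilityMeasure ν] (F : Finset V) (v : V)
    (hv : v ∈ F) (h : V → ℝ) :
    genNum ν F v (fun i => Complex.exp (h i)) = ((∫ x, ind (x v) * wt F h x ∂ν : ℝ) : ℂ) := by
  classical
  have e : ∀ x : V → Bool, ind (x v) * wt F h x =
      (fun S : Finset V => if v ∈ S then ∏ i ∈ S, Real.exp (h i) else 0)
        (F.filter fun i => x i = true) := by
    intro x
    simp only [wt_eq, ind, Finset.mem_filter, hv, true_and]
    split_ifs <;> simp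
  simp only [e]
  rw [integral_filter ν F (fun S => if v ∈ S then ∏ i ∈ S, Real.exp (h i) else 0)]
  simp only [genNum, Complex.ofReal_sum, Complex.ofReal_mul]
  refine Finset.sum_congr rfl fun S _ => ?_
  split_ifs <;> simp

lemma norm_genNum_le {ν : Measure (V → Bool)} (hsr : IsStronglyRayleigh ν) (F : Finset V) (v : V)
    (z : V → ℂ) (hz : ∀ i ∈ F, 0 < (z i).im) :
    ‖genNum ν F v z‖ * (z v).im ≤ ‖z v‖ * ‖genPoly ν F z‖ := by
  classical
  let A : ℂ := ∑ S ∈ F.powerset, (cylMass ν F S : ℂ) * if v ∈ S then 0 else ∏ i ∈ S, z i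
  let B : ℂ := ∑ S ∈ F.powerset, (cylMass ν F S : ℂ) * if v ∈ S then ∏ i ∈ S.erase v, z i else 0
  have hP : ∀ ζ : ℂ, genPoly ν F (Function.update z v ζ) = A + ζ * B := by
    intro ζ
    simp only [genPoly, A, B, Finset.mul_sum, ← Finset.sum_add_distrib]
    refine Finset.sum_congr rfl fun S _ => ?_
    by_cases hS : v ∈ S
    · simp only [hS, if_true]
      rw [Finset.prod_update_of_mem hS, Finset.sdiff_singleton_eq_erase]
      simp only [cylMass]; ring
    · simp only [hS, if_false]
      rw [Finset.prod_update_of_notMem hS]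
      simp only [cylMass]; ring
  have hN : genNum ν F v z = z v * B := by
    simp only [genNum, B, Finset.mul_sum]
    refine Finset.sum_congr rfl fun S _ => ?_
    by_cases hS : v ∈ S
    · simp only [hS, if_true]
      rw [← Finset.mul_prod_erase S z hS]; ring
    · simp [hS]
  have hP0 : genPoly ν F z = A + z v * B := by rw [← hP, Function.update_eq_self]
  by_cases hB : B = 0
  · rw [hN, hB]; simp only [mul_zero, norm_zero, zero_mul]; positivity
  have him : 0 ≤ (A / B).im := by
    by_contra hneg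
    apply hsr F (Function.update z v (-(A / B)))
    · intro i hi
      by_cases hiv : i = v
      · subst hiv
        simp only [Function.update_self, Complex.neg_im]
        linarith
      · rw [Function.update_of_ne hiv]; exact hz i hi
    · rw [hP]; field_simp; ring
  have h1 : genPoly ν F z = (A / B + z v) * B := by rw [hP0]; field_simp
  have h2 : (z v).im ≤ ‖A / B + z v‖ := by
    refine le_trans ?_ ((le_abs_self _).trans (Complex.abs_im_le_norm _))
    rw [Complex.add_im]; linarith
  rw [hN, h1, norm_mul, norm_mul]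
  calc ‖z v‖ * ‖B‖ * (z v).im ≤ ‖z v‖ * ‖B‖ * ‖A / B + z v‖ := by gcongr
    _ = _ := by ring

section Path

variable {ν : Measure (V → Bool)} [IsProbabilityMeasure ν] (hsr : IsStronglyRayleigh ν)
  (F : Finset V) (v : V) (hv : v ∈ F) (h d : V → ℝ) (hd : ∀ i, 1 ≤ d i ∧ d i ≤ 2)

/-- the complexified path of weights -/
noncomputable def zpath (h d : V → ℝ) (t : ℂ) : V → ℂ := fun i => Complex.exp (h i + t * d i)

lemma zpath_real (s : ℝ) : zpath h d s = fun i => Complex.exp ((h i + s * d i : ℝ) : ℂ) := by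
  funext i; simp [zpath]

lemma zpath_conj (t : ℂ) (i : V) :
    zpath h d ((starRingEnd ℂ) t) i = (starRingEnd ℂ) (zpath h d t i) := by
  simp [zpath, ← Complex.exp_conj]

omit [IsProbabilityMeasure ν] in
lemma genPoly_conj (t : ℂ) : genPoly ν F (zpath h d ((starRingEnd ℂ) t)) =
    (starRingEnd ℂ) (genPoly ν F (zpath h d t)) := by
  simp [genPoly, zpath_conj]

omit [IsProbabilityMeasure ν] in
lemma genNum_conj (t : ℂ) : genNum ν F v (zpath h d ((starRingEnd ℂ) t)) =
    (starRingEnd ℂ) (genNum ν F v (zpath h d t)) := by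
  classical
  simp only [genNum, zpath_conj, map_sum, map_mul, Complex.conj_ofReal]
  refine Finset.sum_congr rfl fun S _ => ?_
  split_ifs <;> simp

include hd in
lemma zpath_im (t : ℂ) (h0 : 0 < t.im) (h1 : t.im ≤ 3 / 4) (i : V) :
    ‖zpath h d t i‖ * (t.im / 2) ≤ (zpath h d t i).im := by
  simp only [zpath, Complex.norm_exp, Complex.exp_im]
  refine mul_le_mul_of_nonneg_left ?_ (Real.exp_pos _).le
  have e : ((h i : ℂ) + t * d i).im = t.im * d i := by simp
  rw [e]
  have hpi := Real.pi_gt_three
  have hpi' := Real.pi_le_four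
  have h2 : 0 ≤ t.im * d i := by nlinarith [(hd i).1]
  have h3 : t.im * d i ≤ Real.pi / 2 := by nlinarith [(hd i).2]
  refine le_trans ?_ (Real.mul_le_sin h2 h3)
  have h4 : 1 / 2 ≤ 2 / Real.pi := by rw [div_le_div_iff₀ (by norm_num) (by linarith)]; linarith
  nlinarith [(hd i).1]

include hsr hd in
lemma genPoly_ne (t : ℂ) (h1 : |t.im| ≤ 3 / 4) : genPoly ν F (zpath h d t) ≠ 0 := by
  have key : ∀ t : ℂ, 0 < t.im → t.im ≤ 3 / 4 → genPoly ν F (zpath h d t) ≠ 0 := by
    intro t h0 h1
    refine hsr F _ fun i _ => lt_of_lt_of_le ?_ (zpath_im h d hd t h0 h1 i)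
    have : 0 < ‖zpath h d t i‖ := norm_pos_iff.2 (Complex.exp_ne_zero _)
    positivity
  rcases lt_trichotomy t.im 0 with h0 | h0 | h0
  · have := key ((starRingEnd ℂ) t) (by simpa using h0) (by rw [Complex.conj_im]; linarith [(abs_le.1 h1).1])
    rw [genPoly_conj] at this
    simpa using this
  · have : t = (t.re : ℂ) := by apply Complex.ext <;> simp [h0]
    rw [this, zpath_real, genPoly_real]
    exact Complex.ofReal_ne_zero.2 (integral_wt_pos ν _ _).ne'
  · exact key t h0 (abs_le.1 h1).2

/-- the complexified marginal -/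
noncomputable def mpath (ν : Measure (V → Bool)) (F : Finset V) (v : V) (h d : V → ℝ) (t : ℂ) :
    ℂ := genNum ν F v (zpath h d t) / genPoly ν F (zpath h d t)

include hv in
lemma mpath_real (s : ℝ) : mpath ν F v h d s = (tilt ν F v (fun i => h i + s * d i) : ℝ) := by
  rw [mpath, zpath_real, genPoly_real, genNum_real ν F v hv]
  simp [tilt]

include hsr hd in
lemma norm_mpath_le (t : ℂ) (h1 : |t.im| ≤ 3 / 4) : ‖mpath ν F v h d t‖ * |t.im| ≤ 2 := by
  have key : ∀ t : ℂ, 0 < t.im → t.im ≤ 3 / 4 → ‖mpath ν F v h d t‖ * t.im ≤ 2 := by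
    intro t h0 h1
    have hz : 0 < ‖zpath h d t v‖ := norm_pos_iff.2 (Complex.exp_ne_zero _)
    have hP : 0 < ‖genPoly ν F (zpath h d t)‖ :=
      norm_pos_iff.2 (genPoly_ne hsr F h d hd t (by rw [abs_of_pos h0]; exact h1))
    have h2 := norm_genNum_le hsr F v (zpath h d t) fun i _ =>
      lt_of_lt_of_le (by
        have : 0 < ‖zpath h d t i‖ := norm_pos_iff.2 (Complex.exp_ne_zero _)
        positivity) (zpath_im h d hd t h0 h1 i)
    have h3 := (mul_le_mul_of_nonneg_left (zpath_im h d hd t h0 h1 v) (norm_nonneg _)).trans h2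
    rw [mpath, norm_div, div_mul_eq_mul_div, div_le_iff₀ hP]
    have h4 : ‖zpath h d t v‖ * (‖genNum ν F v (zpath h d t)‖ * t.im) ≤
        ‖zpath h d t v‖ * (2 * ‖genPoly ν F (zpath h d t)‖) := by nlinarith
    exact le_of_mul_le_mul_left h4 hz
  rcases lt_trichotomy t.im 0 with h0 | h0 | h0
  · have := key ((starRingEnd ℂ) t) (by simpa using h0) (by rw [Complex.conj_im]; linarith [(abs_le.1 h1).1])
    rw [mpath, genPoly_conj, genNum_conj, ← map_div₀, Complex.norm_conj] at this
    rw [abs_of_neg h0]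
    simpa [mpath] using this
  · simp [h0]
  · rw [abs_of_pos h0]; exact key t h0 (abs_le.1 h1).2

include hsr hd in
lemma differentiableAt_mpath (t : ℂ) (h1 : |t.im| ≤ 3 / 4) :
    DifferentiableAt ℂ (mpath ν F v h d) t := by
  classical
  have hz : ∀ i, DifferentiableAt ℂ (fun t => zpath h d t i) t := fun i => by
    unfold zpath; fun_prop
  refine DifferentiableAt.div ?_ ?_ (genPoly_ne hsr F h d hd t h1)
  · unfold genNum
    refine DifferentiableAt.fun_sum fun S _ => DifferentiableAt.const_mul ?_ _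
    split_ifs
    · exact DifferentiableAt.fun_finsetProd fun i _ => hz i
    · exact differentiableAt_const _
  · unfold genPoly
    exact DifferentiableAt.fun_sum fun S _ => DifferentiableAt.const_mul
      (DifferentiableAt.fun_finsetProd fun i _ => hz i) _

include hsr hd in
lemma norm_deriv_mpath_le (c : ℂ) (hc : c.im = 0) : ‖deriv (mpath ν F v h d) c‖ ≤ 64 / 9 := by
  let N : ℂ → ℂ := fun t => (9 / 16 - (t - c) ^ 2) * mpath ν F v h d t
  have him : ∀ t ∈ Metric.closedBall c (3 / 4), |t.im| ≤ 3 / 4 := by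
    intro t ht
    have := Complex.abs_im_le_norm (t - c)
    rw [Complex.sub_im, hc, sub_zero] at this
    exact this.trans (mem_closedBall_iff_norm.1 ht)
  have hN : DifferentiableOn ℂ N (Metric.closedBall c (3 / 4)) := fun t ht =>
    (DifferentiableAt.mul (by fun_prop)
      (differentiableAt_mpath hsr F v h d hd t (him t ht))).differentiableWithinAt
  have hb : ∀ t ∈ Metric.sphere c (3 / 4), ‖N t‖ ≤ 3 := by
    intro t ht
    have ht' : ‖t - c‖ = 3 / 4 := mem_sphere_iff_norm.1 ht
    have e1 : (9 / 16 - (t - c) ^ 2 : ℂ) = (t - c) * ((starRingEnd ℂ) (t - c) - (t - c)) := by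
      rw [mul_sub, Complex.mul_conj, Complex.normSq_eq_norm_sq, ht']
      push_cast; ring
    have e2 : ‖(starRingEnd ℂ) (t - c) - (t - c)‖ = 2 * |t.im| := by
      rw [norm_sub_rev, Complex.sub_conj]
      simp [hc]
    have h2 := norm_mpath_le hsr F v h d hd t (him t (Metric.sphere_subset_closedBall ht))
    simp only [N, norm_mul, e1, e2, ht']
    nlinarith
  have h3 := Complex.norm_deriv_le_of_forall_mem_sphere_norm_le (by norm_num : (0 : ℝ) < 3 / 4)
    (DifferentiableOn.diffContOnCl (by rwa [closure_ball c (by norm_num)])) hb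
  have h4 : HasDerivAt N (9 / 16 * deriv (mpath ν F v h d) c) c := by
    have a1 : HasDerivAt (fun t : ℂ => (9 / 16 - (t - c) ^ 2 : ℂ)) 0 c := by
      simpa using (((hasDerivAt_id c).sub_const c).pow 2).const_sub (9 / 16 : ℂ)
    have a2 := (differentiableAt_mpath hsr F v h d hd c (by simp [hc]; norm_num)).hasDerivAt
    have a3 := a1.mul a2
    simp only [zero_mul, sub_self, zero_add, ne_eq, OfNat.ofNat_ne_zero, not_false_eq_true,
      zero_pow, sub_zero] at a3
    exact a3
  rw [h4.deriv, norm_mul] at h3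
  have : ‖(9 / 16 : ℂ)‖ = 9 / 16 := by simp
  rw [this] at h3
  linarith

include hsr hd hv in
lemma abs_tilt_path (s : ℝ) :
    |tilt ν F v (fun i => h i + s * d i) - tilt ν F v h| ≤ 64 / 9 * |s| := by
  have hconv : Convex ℝ {t : ℂ | t.im = 0} := by
    intro a ha b hb x y _ _ _
    simp only [mem_ofPred_eq] at ha hb ⊢
    simp [ha, hb]
  have := Convex.norm_image_sub_le_of_norm_deriv_le (f := mpath ν F v h d) (C := 64 / 9)
    (s := {t : ℂ | t.im = 0})
    (fun t ht => differentiableAt_mpath hsr F v h d hd t (by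
      simp only [mem_ofPred_eq] at ht; rw [ht]; norm_num))
    (fun t ht => norm_deriv_mpath_le hsr F v h d hd t ht) hconv
    (x := ((0 : ℝ) : ℂ)) (y := (s : ℂ)) (by simp) (by simp)
  rw [mpath_real F v hv, mpath_real F v hv, ← Complex.ofReal_sub, ← Complex.ofReal_sub,
    Complex.norm_real, Complex.norm_real] at this
  simpa using this

end Path

lemma abs_tilt_sub {ν : Measure (V → Bool)} [IsProbabilityMeasure ν] (hsr : IsStronglyRayleigh ν)
    (F : Finset V) (v : V) (hv : v ∈ F) (h h' : V → ℝ) (ρ : ℝ) (hh : ∀ w, |h w - h' w| ≤ ρ) :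
    |tilt ν F v h - tilt ν F v h'| ≤ 30 * ρ := by
  have hρ : 0 ≤ ρ := (abs_nonneg _).trans (hh v)
  rcases hρ.eq_or_lt with h0 | h0
  · have : h = h' := funext fun w => by
      have := hh w; rw [← h0] at this
      exact sub_eq_zero.1 (abs_nonpos_iff.1 this)
    simp [this, ← h0]
  have h1 := abs_tilt_path hsr F v hv h (fun _ => 3 / 2) (fun _ => by norm_num) (-(2 * ρ))
  have h2 := abs_tilt_path hsr F v hv (fun i => h i + -(2 * ρ) * (3 / 2))
    (fun i => (h' i - h i + 3 * ρ) / (2 * ρ)) (fun i => by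
      have := abs_le.1 (hh i)
      constructor
      · rw [le_div_iff₀ (by positivity)]; linarith
      · rw [div_le_iff₀ (by positivity)]; linarith) (2 * ρ)
  have e : (fun i => h i + -(2 * ρ) * (3 / 2) + 2 * ρ * ((h' i - h i + 3 * ρ) / (2 * ρ))) = h' := by
    funext i; field_simp; ring
  simp only [e] at h2
  rw [abs_neg] at h1
  rw [abs_of_pos (by positivity : 0 < 2 * ρ)] at h1 h2
  have h3 := abs_le.1 h1
  have h4 := abs_le.1 h2
  rw [abs_le]; constructor <;> linarith

end Crest.Agent.R168
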